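import Vale.Agent.Lib.P154N.Expr

/-!
The final expressions: the polynomial in the variables `r, t, w, u` away from the vertices, and the polynomial in the
chart variables near the vertices.
-/

noncomputable section

namespace Vale.Agent.Lib.P154N

open Vale.Agent.Lib.Common.Kron Vale.Agent.Lib.Common.Kron.PE Vale.Agent.Lib.P154M

/-! ### Away from the vertices -/

/-- The final polynomial at given values of `3 s` and `y`. -/
def mB (La Lb Lc : L2) (u w s3 y : ℝ) : ℝ :=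
  ((14 - 5 * w) ^ 2 * ev2 La s3 y + 10 * (w * (14 - 5 * w)) * ev2 Lb s3 y + 25 * w ^ 2 * ev2 Lc s3 y) / (196 * Da)
    - w ^ 2 / 2000 - piF w / 2 * (37 / 100000) * u ^ 2 * (s3 ^ 3 / 27)
    - piT w * qT w * (ev2u Ue2 u s3 y / Du) - piF w * qF w * (ev2u Ue1 u s3 y / Du)
    - lamN w * (ev2u U3 u s3 y / Du - w) - ffN w

/-- The final expression. -/
def eBulk (La Lb Lc : L2) (R T V U : PE) : PE :=
  PE.add (PE.mul (c 74146291327696896)
      (PE.add (PE.mul (PE.pow (eOm V) 2) (pe2 (eS3 R T) (eYY R T) La))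
        (PE.add (PE.mul (PE.mul (c 10) (PE.mul V (eOm V))) (pe2 (eS3 R T) (eYY R T) Lb))
          (PE.mul (PE.mul (c 25) (PE.pow V 2)) (pe2 (eS3 R T) (eYY R T) Lc)))))
  (PE.add (neg (PE.mul (c 34878415440548619878400000) (PE.pow V 2)))
  (PE.add (neg (PE.mul (c 609647284249952256000) (PE.mul (ePF V) (PE.mul (PE.pow U 2) (PE.pow (eS3 R T) 3)))))
  (PE.add (neg (PE.mul (c 55) (PE.mul (PE.mul (ePT V) (eQT V)) (peMu U (eS3 R T) (eYY R T) Ue2))))
  (PE.add (neg (PE.mul (c 64953900) (PE.mul (PE.mul (ePF V) (eQF V)) (peMu U (eS3 R T) (eYY R T) Ue1))))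
  (PE.add (neg (PE.mul (c 121105609168571596800) (PE.mul (eLm V)
      (PE.add (peMu U (eS3 R T) (eYY R T) U3) (neg (PE.mul (c Du) V))))))
  (neg (PE.add (PE.mul (c 6000000) (PE.mul (ePT V) (eGT V)))
    (PE.add (neg (PE.mul (c 23383404000000) (PE.mul (ePF V) (eGF V))))
      (neg (PE.mul (c 7754778364870656000000) (eGS V)))))))))))

/-- The scale of the final expression. -/
def dB : ℝ := 69756830881097239756800000000

theorem eval_eBulk (x : ℕ → ℝ) (La Lb Lc : L2) (R T V U : PE) :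
    evalR x (eBulk La Lb Lc R T V U)
      = dB * mB La Lb Lc (evalR x U) (evalR x V) (s3R (evalR x R) (evalR x T)) (yyR (evalR x R) (evalR x T)) := by
  simp only [eBulk, evalR, eval_pe2, eval_peMu', eval_eS3, eval_eYY, eval_eOm, eval_ePT, eval_ePF, eval_eLm, eval_eQT,
    eval_eQF, eval_eGT, eval_eGF, eval_eGS, mB, ffN, Du, Da, dB]
  push_cast
  ring

/-- First chart. -/
def eChA (La Lb Lc : L2) : PE := eBulk La Lb Lc (v 0) (v 1) (v 2) (v 3)
/-- Second chart. -/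
def eChB1 (La Lb Lc : L2) : PE := eBulk La Lb Lc (v 0) (v 1) (PE.mul (PE.pow (v 0) 2) (v 2)) (v 3)
/-- Third chart. -/
def eChB2 (La Lb Lc : L2) : PE := eBulk La Lb Lc (PE.mul (v 0) (v 2)) (v 1) (PE.pow (v 0) 2) (v 3)

/-- The region away from the vertices: `u * r * t < 21 / 25`. -/
def regB : PE := PE.add (c 21) (neg (PE.mul (c 25) (PE.mul (v 3) (PE.mul (v 0) (v 1)))))

/-- The range of the parameter. -/
def iU : Iv := ⟨1600, 1773, 3600⟩
/-- The range of the angle. -/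
def iT : Iv := ⟨1, 4, 2⟩

/-! ### Near the vertices -/

/-- The linear combination of the defects before the channel. -/
def aS (w x y z : ℝ) : ℝ := piT w * ph2 x y z - piF w * ph1 x y z - 213 / 4 * ph3 x y z

/-- The final polynomial near the vertices, times `u ^ 2`. -/
def nV (Qa Qb Qc : L2) (kn : ℕ) (u w a0 a1 a2 : ℝ) : ℝ :=
  u ^ 2 * aS w a0 a1 a2
    - piT w * qT w * (ev2 Qa (1 + u - u * a2) 1 / Dq)
    - piF w * qF w * (ev2 Qb (1 + u - u * a2) 1 / Dq)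
    - lamN w * (ev2 Qc (1 + u - u * a2) 1 / Dq - u ^ 2 * w)
    - u ^ 2 * (piF w / 2 * ((kn : ℝ) / 10000000) + ffN w + w ^ 2 / 2000)

/-- The expression `M * beta`, with `beta` the smallest coordinate after the channel. -/
def eMB (U : PE) : PE := PE.add (PE.mul (PE.add (c 1) U) eM) (neg (PE.mul (c 3) U))

/-- The expression for the final polynomial near the vertices. -/
def eNV (Qa Qb Qc : L2) (kn : ℕ) : PE :=
  PE.add (PE.mul (c 3707314566384844800000000000) (PE.mul (PE.pow (v 3) 2) (PE.mul (PE.pow eM 2)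
      (PE.add (PE.mul (ePT (v 2)) (PE.add (PE.mul (c 2) eM) (neg (PE.mul (xP chX1 chX2 chX3) (xW chX1 chX2 chX3)))))
        (PE.add (neg (PE.mul (ePF (v 2)) (PE.add eM (neg (PE.mul (xP chX1 chX2 chX3) (xPw 3 chX1 chX2 chX3))))))
          (neg (PE.mul (c 41748) (PE.add eM (neg (PE.mul (c 3) (PE.pow (xP chX1 chX2 chX3) 2)))))))))))
  (PE.add (neg (PE.mul (c 33) (PE.mul (PE.mul (ePT (v 2)) (eQT (v 2))) (peB 3 (eMB (v 3)) eM Qa))))
  (PE.add (neg (PE.mul (c 38972340) (PE.mul (PE.mul (ePF (v 2)) (eQF (v 2))) (peB 3 (eMB (v 3)) eM Qb))))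
  (PE.add (neg (PE.mul (c 72663365501142958080) (PE.mul (eLm (v 2)) (peB 3 (eMB (v 3)) eM Qc))))
  (PE.mul (PE.pow (v 3) 2) (PE.mul (PE.pow eM 3)
    (PE.add (PE.mul (c 72663365501142958080000000000) (PE.mul (eLm (v 2)) (v 2)))
    (PE.add (neg (PE.mul (c (185365728319242240000 * kn)) (ePF (v 2))))
    (PE.add (neg (PE.mul (c 1453267310022859161600000000) (PE.pow (v 2) 2)))
    (neg (PE.add (PE.mul (c 250000000) (PE.mul (ePT (v 2)) (eGT (v 2))))
      (PE.add (neg (PE.mul (c 974308500000000) (PE.mul (ePF (v 2)) (eGF (v 2)))))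
        (neg (PE.mul (c 323115765202944000000000) (eGS (v 2))))))))))))))) 

/-- The scale of the expression near the vertices. -/
def dN : ℝ := 2906534620045718323200000000000

theorem eval_eMB (x : ℕ → ℝ) (U : PE) :
    evalR x (eMB U) / chM (x 0) (x 1) = 1 + evalR x U - evalR x U * cC (x 0) (x 1) := by
  have hM := chM_pos (x 0) (x 1)
  simp only [eMB, evalR, eval_eM, cC]
  push_cast
  field_simp
  ring

theorem eval_eNV (x : ℕ → ℝ) (h0 : 0 ≤ x 0) (h1 : 0 ≤ x 1) {Qa Qb Qc : L2} (kn : ℕ) (ha : degLe 3 Qa = true)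
    (hb : degLe 3 Qb = true) (hc : degLe 3 Qc = true) :
    evalR x (eNV Qa Qb Qc kn)
      = dN * chM (x 0) (x 1) ^ 3 * nV Qa Qb Qc kn (x 3) (x 2) (cA (x 0) (x 1)) (cB (x 0) (x 1)) (cC (x 0) (x 1)) := by
  have hM := chM_pos (x 0) (x 1)
  have hX : 0 ≤ x 0 * x 1 := mul_nonneg h0 h1
  have hM' : 0 < rPw 6 (x 0 * x 1) (x 1) 1 := hM
  have e1 := f1_val' hX h1 zero_le_one hM'
  have e2 := f2_val' hX h1 zero_le_one hM'
  have e3 := f3_val' hX h1 zero_le_one hM'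
  have hne : evalR x eM ≠ 0 := by
    rw [eval_eM]
    exact hM.ne'
  simp only [eNV, evalR, eval_peB x 3 _ _ _ ha hne, eval_peB x 3 _ _ _ hb hne, eval_peB x 3 _ _ _ hc hne, eval_eMB,
    eval_eM, eval_ePT, eval_ePF, eval_eLm, eval_eQT, eval_eQF, eval_eGT, eval_eGF, eval_eGS, eval_xP, eval_xW, eval_xPw,
    eval_chX1, eval_chX2, eval_chX3, nV, aS, ph1, ph2, ph3, ffN, dN, Dq]
  have e4 : rPw 6 (x 0 * x 1) (x 1) 1 = chM (x 0) (x 1) := rfl
  rw [e4] at e1 e2 e3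
  change chM (x 0) (x 1) * f1 (cA (x 0) (x 1)) (cB (x 0) (x 1)) (cC (x 0) (x 1)) = _ at e1
  change 2 * chM (x 0) (x 1) * f2 (cA (x 0) (x 1)) (cB (x 0) (x 1)) (cC (x 0) (x 1)) = _ at e2
  change chM (x 0) (x 1) * f3 (cA (x 0) (x 1)) (cB (x 0) (x 1)) (cC (x 0) (x 1)) = _ at e3
  have xv3 : x 3 = x 3 := rfl
  set M := chM (x 0) (x 1)
  push_cast
  linear_combination (1453267310022859161600000000000 * x 3 ^ 2 * M ^ 2 * piT (x 2)) * e2
    - (2906534620045718323200000000000 * x 3 ^ 2 * M ^ 2 * piF (x 2)) * e1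
    - (2906534620045718323200000000000 * (213 / 4) * x 3 ^ 2 * M ^ 2) * e3

/-- Region `n1 / d1 < beta < n2 / d2` near the vertices. -/
def regNV (n1 d1 n2 d2 : ℕ) : PE :=
  PE.mul (PE.add (PE.mul (c d1) (eMB (v 3))) (neg (PE.mul (c n1) eM)))
    (PE.add (PE.mul (c n2) eM) (neg (PE.mul (c d2) (eMB (v 3)))))

theorem eval_regNV (x : ℕ → ℝ) (n1 d1 n2 d2 : ℕ) :
    evalR x (regNV n1 d1 n2 d2) = chM (x 0) (x 1) ^ 2
      * (((d1 : ℝ) * (1 + x 3 - x 3 * cC (x 0) (x 1)) - n1) * ((n2 : ℝ) - (d2 : ℝ) * (1 + x 3 - x 3 * cC (x 0) (x 1)))) := by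
  have hM := chM_pos (x 0) (x 1)
  have e := eval_eMB x (v 3)
  have e2 : evalR x (eMB (v 3)) = chM (x 0) (x 1) * (1 + x 3 - x 3 * cC (x 0) (x 1)) := by
    have e3 : evalR x (v 3) = x 3 := rfl
    rw [e3] at e
    rw [← e]
    field_simp
  simp only [regNV, evalR, eval_eM, e2]
  ring

/-! ### Root cells -/

/-- Root cell of the fits after the channel. -/
def rootC : Cell := ⟨⟨17, 25, 25⟩, ⟨89, 100, 100⟩, ⟨0, 1, 1⟩, ⟨0, 1, 1⟩⟩
/-- Root cells of the fits near the vertices. -/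
def rootQ0 : Cell := ⟨⟨464, 523, 1000⟩, ⟨49, 50, 50⟩, ⟨0, 1, 1⟩, ⟨0, 1, 1⟩⟩
/-- Root cells of the fits near the vertices. -/
def rootQ1 : Cell := ⟨⟨521, 589, 1000⟩, ⟨49, 50, 50⟩, ⟨0, 1, 1⟩, ⟨0, 1, 1⟩⟩
/-- Root cells of the fits near the vertices. -/
def rootQ2 : Cell := ⟨⟨586, 645, 1000⟩, ⟨49, 50, 50⟩, ⟨0, 1, 1⟩, ⟨0, 1, 1⟩⟩
/-- Root cells of the fits near the vertices. -/
def rootQ3 : Cell := ⟨⟨640, 702, 1000⟩, ⟨49, 50, 50⟩, ⟨0, 1, 1⟩, ⟨0, 1, 1⟩⟩
/-- Root cells of the final polynomial near the vertices. -/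
def rootN0 : Cell := ⟨⟨0, 1, 1⟩, ⟨0, 7, 10⟩, ⟨0, 14, 5⟩, ⟨194, 197, 400⟩⟩
/-- Root cells of the final polynomial near the vertices. -/
def rootN1 : Cell := ⟨⟨0, 1, 1⟩, ⟨0, 7, 10⟩, ⟨0, 14, 5⟩, ⟨188, 197, 400⟩⟩
/-- Root cells of the final polynomial near the vertices. -/
def rootN2 : Cell := ⟨⟨0, 1, 1⟩, ⟨0, 7, 10⟩, ⟨0, 14, 5⟩, ⟨180, 197, 400⟩⟩
/-- Root cells of the final polynomial near the vertices. -/
def rootN3 : Cell := ⟨⟨0, 1, 1⟩, ⟨0, 7, 10⟩, ⟨0, 14, 5⟩, ⟨1600, 1773, 3600⟩⟩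
/-- Root cells of the final polynomial away from the vertices. -/
def rootA1 : Cell := ⟨⟨5, 19, 20⟩, iT, ⟨0, 14, 5⟩, iU⟩
/-- Root cells of the final polynomial away from the vertices. -/
def rootA2 : Cell := ⟨⟨0, 1, 4⟩, iT, ⟨5, 224, 80⟩, iU⟩
/-- Root cells of the final polynomial away from the vertices. -/
def rootB1 : Cell := ⟨⟨0, 1, 4⟩, iT, ⟨0, 1, 16⟩, iU⟩
/-- Root cells of the final polynomial away from the vertices. -/
def rootB2 : Cell := ⟨⟨0, 1, 4⟩, iT, ⟨0, 4, 1⟩, iU⟩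
/-- Root cells of the final polynomial away from the vertices. -/
def rootK2 : Cell := ⟨⟨95, 98, 100⟩, iT, ⟨0, 14, 5⟩, iU⟩
/-- Root cells of the final polynomial away from the vertices. -/
def rootK3 : Cell := ⟨⟨196, 199, 200⟩, iT, ⟨0, 14, 5⟩, iU⟩
/-- Root cells of the final polynomial away from the vertices. -/
def rootK4 : Cell := ⟨⟨199, 200, 200⟩, iT, ⟨0, 14, 5⟩, iU⟩

end Vale.Agent.Lib.P154N
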