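import Vale.Agent.Lib.P154N.Bulk
import Vale.Agent.Lib.P154N.CkF1

set_option linter.defProp false

/-!
Kernel checks: final polynomial.
-/

namespace Vale.Agent.Lib.P154N

open Vale.Agent.Lib.Common.Kron Vale.Agent.Lib.Common.Kron.PE Vale.Agent.Lib.P154M

set_option maxRecDepth 100000 in
def ghFA2_3 : checkT (eChA Lk1v0 Lk1v1 Lk1v2) (c 1) [11, 11, 14, 9] .leaf ((((rootA2.lowH 2).lowH 2).lowH 2).upH 2) = true := by
  decide +kernel

set_option maxRecDepth 100000 in
def ghFA2_4 : checkT (eChA Lk1v0 Lk1v1 Lk1v2) (c 1) [11, 11, 14, 9] .leaf (((rootA2.lowH 2).lowH 2).upH 2) = true := by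
  decide +kernel

set_option maxRecDepth 100000 in
def ghFA2_5 : checkT (eChA Lk1v0 Lk1v1 Lk1v2) (c 1) [11, 11, 14, 9] .leaf ((rootA2.lowH 2).upH 2) = true := by
  decide +kernel

set_option maxRecDepth 100000 in
def ghFA2_6 : checkT (eChA Lk1v0 Lk1v1 Lk1v2) (c 1) [11, 11, 14, 9] .leaf (rootA2.upH 2) = true := by
  decide +kernel

end Vale.Agent.Lib.P154N
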