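import Vale.Agent.Lib.P154N.Bulk
import Vale.Agent.Lib.P154N.CkF4

set_option linter.defProp false

/-!
Kernel checks: final polynomial.
-/

namespace Vale.Agent.Lib.P154N

open Vale.Agent.Lib.Common.Kron Vale.Agent.Lib.Common.Kron.PE Vale.Agent.Lib.P154M

set_option maxRecDepth 100000 in
def ghFB2_1 : checkT (eChB2 Lk1v0 Lk1v1 Lk1v2) (c 1) [35, 11, 11, 9] .leaf ((rootB2.lowH 2).upH 2) = true := by
  decide +kernel

end Vale.Agent.Lib.P154N
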