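import Vale.Agent.Lib.P154N.Bulk
import Vale.Agent.Lib.P154N.CkS9

set_option linter.defProp false

/-!
Kernel checks: final polynomial.
-/

namespace Vale.Agent.Lib.P154N

open Vale.Agent.Lib.Common.Kron Vale.Agent.Lib.Common.Kron.PE Vale.Agent.Lib.P154M

set_option maxRecDepth 100000 in
def ghFA1_38 : checkT (eChA Lk1v0 Lk1v1 Lk1v2) regB [11, 11, 14, 9] .leaf (((((((((rootA1.upH 2).lowH 2).upH 1).upH 0).upH 2).upH 1).upH 0).lowH 2).lowH 3) = true := by
  decide +kernel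

set_option maxRecDepth 100000 in
def ghFA1_39 : checkT (eChA Lk1v0 Lk1v1 Lk1v2) regB [11, 11, 14, 9] .leaf ((((((((((rootA1.upH 2).lowH 2).upH 1).upH 0).upH 2).upH 1).upH 0).lowH 2).upH 3).lowH 1) = true := by
  decide +kernel

set_option maxRecDepth 100000 in
def ghFA1_40 : checkT (eChA Lk1v0 Lk1v1 Lk1v2) regB [11, 11, 14, 9] .leaf (((((((((((rootA1.upH 2).lowH 2).upH 1).upH 0).upH 2).upH 1).upH 0).lowH 2).upH 3).upH 1).lowH 0) = true := by
  decide +kernel

set_option maxRecDepth 100000 in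
def ghFA1_41 : checkT (eChA Lk1v0 Lk1v1 Lk1v2) regB [11, 11, 14, 9] .leaf ((((((((((((rootA1.upH 2).lowH 2).upH 1).upH 0).upH 2).upH 1).upH 0).lowH 2).upH 3).upH 1).upH 0).lowH 3) = true := by
  decide +kernel

set_option maxRecDepth 100000 in
def ghFA1_42 : checkT (eChA Lk1v0 Lk1v1 Lk1v2) regB [11, 11, 14, 9] .leaf (((((((((((((rootA1.upH 2).lowH 2).upH 1).upH 0).upH 2).upH 1).upH 0).lowH 2).upH 3).upH 1).upH 0).upH 3).lowH 1) = true := by
  decide +kernel

end Vale.Agent.Lib.P154N
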