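import Vale.Agent.Lib.P154N.Bulk
import Vale.Agent.Lib.P154N.CkF9

set_option linter.defProp false

/-!
Kernel checks: final polynomial.
-/

namespace Vale.Agent.Lib.P154N

open Vale.Agent.Lib.Common.Kron Vale.Agent.Lib.Common.Kron.PE Vale.Agent.Lib.P154M

set_option maxRecDepth 100000 in
def ghFK2_11 : checkT (eChA Lk2v0 Lk2v1 Lk2v2) regB [11, 11, 14, 9] (.node 2 (.node 1 .leaf .drop) (.node 1 .leaf .drop)) ((((((((rootK2.upH 2).lowH 2).upH 1).upH 1).upH 2).upH 3).upH 1).upH 3) = true := by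
  decide +kernel

set_option maxRecDepth 100000 in
def ghFK2_12 : checkT (eChA Lk2v0 Lk2v1 Lk2v2) regB [11, 11, 14, 9] .leaf (((rootK2.upH 2).upH 2).lowH 1) = true := by
  decide +kernel

set_option maxRecDepth 100000 in
def ghFK2_13 : checkT (eChA Lk2v0 Lk2v1 Lk2v2) regB [11, 11, 14, 9] .leaf ((((rootK2.upH 2).upH 2).upH 1).lowH 1) = true := by
  decide +kernel

set_option maxRecDepth 100000 in
def ghFK2_14 : checkT (eChA Lk2v0 Lk2v1 Lk2v2) regB [11, 11, 14, 9] .leaf ((((((rootK2.upH 2).upH 2).upH 1).upH 1).lowH 2).lowH 1) = true := by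
  decide +kernel

end Vale.Agent.Lib.P154N
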