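import Vale.Agent.Lib.P154N.Bulk
import Vale.Agent.Lib.P154N.CkF14

set_option linter.defProp false

/-!
Kernel checks: final polynomial.
-/

namespace Vale.Agent.Lib.P154N

open Vale.Agent.Lib.Common.Kron Vale.Agent.Lib.Common.Kron.PE Vale.Agent.Lib.P154M

set_option maxRecDepth 100000 in
def ghFK3_11 : checkT (eChA Lk3v0 Lk3v1 Lk3v2) regB [11, 11, 14, 9] (.node 1 .leaf (.node 3 .leaf .drop)) ((((((rootK3.upH 2).upH 1).lowH 2).upH 1).upH 2).upH 3) = true := by
  decide +kernel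

set_option maxRecDepth 100000 in
def ghFK3_12 : checkT (eChA Lk3v0 Lk3v1 Lk3v2) regB [11, 11, 14, 9] .leaf ((((rootK3.upH 2).upH 1).upH 2).lowH 1) = true := by
  decide +kernel

set_option maxRecDepth 100000 in
def ghFK3_13 : checkT (eChA Lk3v0 Lk3v1 Lk3v2) regB [11, 11, 14, 9] .leaf ((((((rootK3.upH 2).upH 1).upH 2).upH 1).lowH 2).lowH 1) = true := by
  decide +kernel

set_option maxRecDepth 100000 in
def ghFK3_14 : checkT (eChA Lk3v0 Lk3v1 Lk3v2) regB [11, 11, 14, 9] .leaf (((((((rootK3.upH 2).upH 1).upH 2).upH 1).lowH 2).upH 1).lowH 3) = true := by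
  decide +kernel

end Vale.Agent.Lib.P154N
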