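import Vale.Agent.Lib.P154N.Bulk
import Vale.Agent.Lib.P154N.CkF19

set_option linter.defProp false

/-!
Kernel checks: final polynomial.
-/

namespace Vale.Agent.Lib.P154N

open Vale.Agent.Lib.Common.Kron Vale.Agent.Lib.Common.Kron.PE Vale.Agent.Lib.P154M

set_option maxRecDepth 100000 in
def ghN0_2 : checkT (eNV Qe2b0 Qe1b0 Q3b0 7429) (regNV 149 10000 301 10000) [19, 19, 14, 4] (.node 2 .leaf .leaf) ((((rootN0.upH 1).upH 0).lowH 1).lowH 1) = true := by
  decide +kernel

end Vale.Agent.Lib.P154N
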