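import Vale.Agent.Lib.P154N.Bulk
import Vale.Agent.Lib.P154N.CkF23

set_option linter.defProp false

/-!
Kernel checks: final polynomial.
-/

namespace Vale.Agent.Lib.P154N

open Vale.Agent.Lib.Common.Kron Vale.Agent.Lib.Common.Kron.PE Vale.Agent.Lib.P154M

set_option maxRecDepth 100000 in
def ghN1_1 : checkT (eNV Qe2b1 Qe1b1 Q3b1 2794) (regNV 299 10000 601 10000) [19, 19, 14, 4] (.node 1 (.node 2 .leaf .leaf) .leaf) ((rootN1.upH 1).lowH 0) = true := by
  decide +kernel

end Vale.Agent.Lib.P154N
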