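import Vale.Agent.Lib.P154N.Bulk
import Vale.Agent.Lib.P154N.CkF27

set_option linter.defProp false

/-!
Kernel checks: final polynomial.
-/

namespace Vale.Agent.Lib.P154N

open Vale.Agent.Lib.Common.Kron Vale.Agent.Lib.Common.Kron.PE Vale.Agent.Lib.P154M

set_option maxRecDepth 100000 in
def ghN2_0 : checkT (eNV Qe2b2 Qe1b2 Q3b2 4854) (regNV 599 10000 1001 10000) [19, 19, 14, 4] (.node 2 .leaf .leaf) (rootN2.lowH 1) = true := by
  decide +kernel

end Vale.Agent.Lib.P154N
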