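import Vale.Agent.Lib.P154N.Bulk
import Vale.Agent.Lib.P154N.CkF34

set_option linter.defProp false

/-!
Kernel checks: final polynomial.
-/

namespace Vale.Agent.Lib.P154N

open Vale.Agent.Lib.Common.Kron Vale.Agent.Lib.Common.Kron.PE Vale.Agent.Lib.P154M

set_option maxRecDepth 100000 in
def ghN3_3 : checkT (eNV Qe2b3 Qe1b3 Q3b3 5101) (regNV 999 10000 1601 10000) [19, 19, 14, 4] .leaf (((rootN3.upH 1).lowH 0).upH 2) = true := by
  decide +kernel

set_option maxRecDepth 100000 in
def ghN3_4 : checkT (eNV Qe2b3 Qe1b3 Q3b3 5101) (regNV 999 10000 1601 10000) [19, 19, 14, 4] (.node 2 .leaf .leaf) (((rootN3.upH 1).upH 0).lowH 1) = true := by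
  decide +kernel

end Vale.Agent.Lib.P154N
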