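import Vale.Agent.Lib.P154N.Data
import Vale.Agent.Lib.P154M.Fin

/-!
Expressions for the kernel checks of the certificate in the range `4 / 9 ≤ mu ≤ 197 / 400`, and their values.
-/

noncomputable section

namespace Vale.Agent.Lib.P154N

open Vale.Agent.Lib.Common.Kron Vale.Agent.Lib.Common.Kron.PE Vale.Agent.Lib.P154M

/-! ### A combination of the three means -/

/-- A combination of the three means with integer coefficients. -/
def vF (a b d e : ℤ) (x y z : ℝ) : ℝ :=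
  (a : ℝ) + (b : ℝ) * f1 x y z + 2 * (d : ℝ) * f2 x y z + (e : ℝ) / 3 * f3 x y z

theorem vF_val {X Y Z : ℝ} (hX : 0 ≤ X) (hY : 0 ≤ Y) (hZ : 0 ≤ Z) (hM : 0 < rPw 6 X Y Z) (a b d e : ℤ) :
    rPw 6 X Y Z * vF a b d e (3 / rPw 6 X Y Z * X ^ 6) (3 / rPw 6 X Y Z * Y ^ 6) (3 / rPw 6 X Y Z * Z ^ 6)
      = rForm a b d e X Y Z := by
  have h1 := f1_val' hX hY hZ hM
  have h2 := f2_val' hX hY hZ hM
  have h3 := f3_val' hX hY hZ hM
  unfold vF rForm
  linear_combination (b : ℝ) * h1 + (d : ℝ) * h2 + (e : ℝ) / 3 * h3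

theorem vF_swap12 (a b d e : ℤ) (x y z : ℝ) : vF a b d e y x z = vF a b d e x y z := by
  unfold vF
  rw [f1_swap12, f2_swap12, f3_swap12]

theorem vF_swap23 (a b d e : ℤ) (x y z : ℝ) : vF a b d e x z y = vF a b d e x y z := by
  unfold vF
  rw [f1_swap23, f2_swap23, f3_swap23]

/-! ### The chart -/

/-- The chart. -/
def chM (p q : ℝ) : ℝ := rPw 6 (p * q) q 1
/-- The chart. -/
def cA (p q : ℝ) : ℝ := 3 / chM p q * (p * q) ^ 6
/-- The chart. -/
def cB (p q : ℝ) : ℝ := 3 / chM p q * q ^ 6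
/-- The chart. -/
def cC (p q : ℝ) : ℝ := 3 / chM p q * 1 ^ 6

theorem chM_pos (p q : ℝ) : 0 < chM p q := by
  unfold chM rPw
  positivity

theorem chart_s {a b c : ℝ} (ha : 0 ≤ a) (hab : a ≤ b) (hbc : b ≤ c) (hs : a + b + c = 3) :
    ∃ p q : ℝ, 0 ≤ p ∧ p ≤ 1 ∧ 0 ≤ q ∧ q ≤ 1 ∧ a = cA p q ∧ b = cB p q ∧ c = cC p q :=
  chart_sorted ha hab hbc hs

theorem eval_chX1 (x : ℕ → ℝ) : evalR x chX1 = x 0 * x 1 := by
  simp [chX1, evalR]
theorem eval_chX2 (x : ℕ → ℝ) : evalR x chX2 = x 1 := by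
  simp [chX2, evalR]
theorem eval_chX3 (x : ℕ → ℝ) : evalR x chX3 = 1 := by
  simp [chX3, evalR]

/-- The value of the denominator on the chart. -/
def eM : PE := xPw 6 chX1 chX2 chX3

theorem eval_eM (x : ℕ → ℝ) : evalR x eM = chM (x 0) (x 1) := by
  simp only [eM, eval_xPw, eval_chX1, eval_chX2, eval_chX3, chM]

/-! ### Fits in the two moments -/

/-- Lower fit: `D * form * M ^ (N - 1) - s * M ^ N * L`. -/
def eLow (D s : ℕ) (a b d e : ℤ) (N : ℕ) (L : L2) : PE :=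
  PE.add (PE.mul (c D) (PE.mul (xForm a b d e chX1 chX2 chX3) (PE.pow eM (N - 1))))
    (neg (PE.mul (c s) (peH N (xSN chX1 chX2 chX3) (xYN chX1 chX2 chX3) eM L)))

/-- Upper fit: `s * M ^ N * L - D * form * M ^ (N - 1)`. -/
def eUp (D s : ℕ) (a b d e : ℤ) (N : ℕ) (L : L2) : PE :=
  PE.add (PE.mul (c s) (peH N (xSN chX1 chX2 chX3) (xYN chX1 chX2 chX3) eM L))
    (neg (PE.mul (c D) (PE.mul (xForm a b d e chX1 chX2 chX3) (PE.pow eM (N - 1)))))

theorem eval_peH_ch (x : ℕ → ℝ) (h0 : 0 ≤ x 0) (h1 : 0 ≤ x 1) {N : ℕ} {L : L2} (hL : wtLe N L = true) :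
    evalR x (peH N (xSN chX1 chX2 chX3) (xYN chX1 chX2 chX3) eM L)
      = chM (x 0) (x 1) ^ N * ev2 L (3 * sS (cA (x 0) (x 1)) (cB (x 0) (x 1)) (cC (x 0) (x 1)))
          (yS (cA (x 0) (x 1)) (cB (x 0) (x 1)) (cC (x 0) (x 1))) := by
  have hM := chM_pos (x 0) (x 1)
  rw [eval_peH x N _ _ _ L hL (by rw [eval_eM]; exact hM.ne'), eval_eM, eval_xSN, eval_xYN,
    eval_chX1, eval_chX2, eval_chX3]
  have e1 := sS_val (X := x 0 * x 1) (Y := x 1) (Z := 1) hM.ne'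
  have e2 := yS_val (X := x 0 * x 1) (Y := x 1) (Z := 1) hM.ne'
  have e3 : rPw 6 (x 0 * x 1) (x 1) 1 = chM (x 0) (x 1) := rfl
  rw [← e3, ← e1, ← e2]
  rfl

theorem eval_form_ch (x : ℕ → ℝ) (h0 : 0 ≤ x 0) (h1 : 0 ≤ x 1) (a b d e : ℤ) :
    evalR x (xForm a b d e chX1 chX2 chX3)
      = chM (x 0) (x 1) * vF a b d e (cA (x 0) (x 1)) (cB (x 0) (x 1)) (cC (x 0) (x 1)) := by
  rw [eval_xForm, eval_chX1, eval_chX2, eval_chX3]
  exact (vF_val (mul_nonneg h0 h1) h1 zero_le_one (chM_pos (x 0) (x 1)) a b d e).symm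

theorem eval_eLow (x : ℕ → ℝ) (h0 : 0 ≤ x 0) (h1 : 0 ≤ x 1) (D s : ℕ) (a b d e : ℤ) {N : ℕ} (hN : 1 ≤ N)
    {L : L2} (hL : wtLe N L = true) :
    evalR x (eLow D s a b d e N L)
      = chM (x 0) (x 1) ^ N * ((D : ℝ) * vF a b d e (cA (x 0) (x 1)) (cB (x 0) (x 1)) (cC (x 0) (x 1))
          - (s : ℝ) * ev2 L (3 * sS (cA (x 0) (x 1)) (cB (x 0) (x 1)) (cC (x 0) (x 1)))
          (yS (cA (x 0) (x 1)) (cB (x 0) (x 1)) (cC (x 0) (x 1)))) := by
  simp only [eLow, evalR]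
  rw [eval_peH_ch x h0 h1 hL, eval_form_ch x h0 h1, eval_eM]
  obtain ⟨m, rfl⟩ : ∃ m, N = m + 1 := ⟨N - 1, by omega⟩
  simp only [Nat.add_sub_cancel, pow_succ]
  ring

theorem eval_eUp (x : ℕ → ℝ) (h0 : 0 ≤ x 0) (h1 : 0 ≤ x 1) (D s : ℕ) (a b d e : ℤ) {N : ℕ} (hN : 1 ≤ N)
    {L : L2} (hL : wtLe N L = true) :
    evalR x (eUp D s a b d e N L)
      = chM (x 0) (x 1) ^ N * ((s : ℝ) * ev2 L (3 * sS (cA (x 0) (x 1)) (cB (x 0) (x 1)) (cC (x 0) (x 1)))
          (yS (cA (x 0) (x 1)) (cB (x 0) (x 1)) (cC (x 0) (x 1)))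
          - (D : ℝ) * vF a b d e (cA (x 0) (x 1)) (cB (x 0) (x 1)) (cC (x 0) (x 1))) := by
  simp only [eUp, evalR]
  rw [eval_peH_ch x h0 h1 hL, eval_form_ch x h0 h1, eval_eM]
  obtain ⟨m, rfl⟩ : ∃ m, N = m + 1 := ⟨N - 1, by omega⟩
  simp only [Nat.add_sub_cancel, pow_succ]
  ring

/-! ### Fits in the smallest coordinate -/

/-- All exponents in the first place are at most `d`. -/
def degLe (d : ℕ) (P : L2) : Bool := P.all fun m => Nat.ble m.2.1 d

/-- Homogenised polynomial in one variable: `M ^ d * P (B / M)`. -/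
def peB (d : ℕ) (B M : PE) : L2 → PE
  | [] => c 0
  | m :: P => PE.add (PE.mul (zE m.1) (PE.mul (PE.pow B m.2.1) (PE.pow M (d - m.2.1)))) (peB d B M P)

theorem eval_peB (x : ℕ → ℝ) (d : ℕ) (B M : PE) (P : L2) (hP : degLe d P = true) (hM : evalR x M ≠ 0) :
    evalR x (peB d B M P) = evalR x M ^ d * ev2 P (evalR x B / evalR x M) 1 := by
  induction P with
  | nil => simp [peB, evalR, ev2]
  | cons m P ih =>
    simp only [degLe, List.all_cons, Bool.and_eq_true] at hP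
    have hm := Nat.le_of_ble_eq_true hP.1
    have := ih hP.2
    simp only [peB, evalR, eval_zE, this, ev2, List.map_cons, List.sum_cons, one_pow, mul_one]
    rw [mul_add]
    congr 1
    set M' := evalR x M
    have h1 : M' ^ d = M' ^ (d - m.2.1) * M' ^ m.2.1 := by
      rw [← pow_add]
      congr 1
      omega
    rw [h1, div_pow]
    have h2 : M' ^ m.2.1 ≠ 0 := pow_ne_zero _ hM
    field_simp

/-- Three times a sixth power of the first chart coordinate. -/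
def e3X : PE := PE.mul (c 3) (PE.pow chX1 6)

theorem eval_e3X (x : ℕ → ℝ) : evalR x e3X / chM (x 0) (x 1) = cA (x 0) (x 1) := by
  simp only [e3X, evalR, eval_chX1, cA]
  push_cast
  ring

/-- Upper fit in the smallest coordinate: `s * M ^ d * Q - D * form * M ^ (d - 1)`. -/
def eQUp (D s : ℕ) (a b d e : ℤ) (dd : ℕ) (Q : L2) : PE :=
  PE.add (PE.mul (c s) (peB dd e3X eM Q))
    (neg (PE.mul (c D) (PE.mul (xForm a b d e chX1 chX2 chX3) (PE.pow eM (dd - 1)))))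

theorem eval_eQUp (x : ℕ → ℝ) (h0 : 0 ≤ x 0) (h1 : 0 ≤ x 1) (D s : ℕ) (a b d e : ℤ) {dd : ℕ} (hd : 1 ≤ dd)
    {Q : L2} (hQ : degLe dd Q = true) :
    evalR x (eQUp D s a b d e dd Q)
      = chM (x 0) (x 1) ^ dd * ((s : ℝ) * ev2 Q (cA (x 0) (x 1)) 1
          - (D : ℝ) * vF a b d e (cA (x 0) (x 1)) (cB (x 0) (x 1)) (cC (x 0) (x 1))) := by
  have hM := chM_pos (x 0) (x 1)
  simp only [eQUp, evalR]
  rw [eval_peB x dd _ _ Q hQ (by rw [eval_eM]; exact hM.ne'), eval_form_ch x h0 h1, eval_eM, eval_e3X]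
  obtain ⟨m, rfl⟩ : ∃ m, dd = m + 1 := ⟨dd - 1, by omega⟩
  simp only [Nat.add_sub_cancel, pow_succ]
  ring

/-! ### Regions on the chart -/

/-- Region `n / d < A`. -/
def regGe (n d : ℕ) : PE := PE.add (PE.mul (c d) e3X) (neg (PE.mul (c n) eM))
/-- Region `A < n / d`. -/
def regLe (n d : ℕ) : PE := PE.add (PE.mul (c n) eM) (neg (PE.mul (c d) e3X))
/-- Region `n1 / d1 < A < n2 / d2`. -/
def regBand (n1 d1 n2 d2 : ℕ) : PE := PE.mul (regGe n1 d1) (regLe n2 d2)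
/-- Region `n / d < M`. -/
def regMgt (n d : ℕ) : PE := PE.add (PE.mul (c d) eM) (neg (c n))

theorem eval_e3X' (x : ℕ → ℝ) : evalR x e3X = chM (x 0) (x 1) * cA (x 0) (x 1) := by
  have h := eval_e3X x
  have hM := chM_pos (x 0) (x 1)
  rw [← h]
  field_simp

theorem eval_regGe (x : ℕ → ℝ) (n d : ℕ) :
    evalR x (regGe n d) = chM (x 0) (x 1) * ((d : ℝ) * cA (x 0) (x 1) - n) := by
  simp only [regGe, evalR, eval_e3X', eval_eM]
  ring

theorem eval_regLe (x : ℕ → ℝ) (n d : ℕ) :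
    evalR x (regLe n d) = chM (x 0) (x 1) * ((n : ℝ) - (d : ℝ) * cA (x 0) (x 1)) := by
  simp only [regLe, evalR, eval_e3X', eval_eM]
  ring

theorem regGe_pos (x : ℕ → ℝ) {n d : ℕ} (h : (n : ℝ) < d * cA (x 0) (x 1)) : 0 < evalR x (regGe n d) := by
  rw [eval_regGe]
  exact mul_pos (chM_pos _ _) (by linarith)

theorem regLe_pos (x : ℕ → ℝ) {n d : ℕ} (h : (d : ℝ) * cA (x 0) (x 1) < n) : 0 < evalR x (regLe n d) := by
  rw [eval_regLe]
  exact mul_pos (chM_pos _ _) (by linarith)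

theorem regBand_pos (x : ℕ → ℝ) {n1 d1 n2 d2 : ℕ} (h1 : (n1 : ℝ) < d1 * cA (x 0) (x 1))
    (h2 : (d2 : ℝ) * cA (x 0) (x 1) < n2) : 0 < evalR x (regBand n1 d1 n2 d2) := by
  simp only [regBand, evalR]
  exact mul_pos (regGe_pos x h1) (regLe_pos x h2)

theorem regMgt_pos (x : ℕ → ℝ) {n d : ℕ} (h : (n : ℝ) < d * chM (x 0) (x 1)) : 0 < evalR x (regMgt n d) := by
  simp only [regMgt, evalR, eval_eM]
  linarith

/-! ### Multipliers -/

/-- The multiplier of the positive term. -/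
def piT (w : ℝ) : ℝ := (150 * (14 - 5 * w) ^ 2 + 1584 * (w * (14 - 5 * w)) + 2925 * w ^ 2) / 392
/-- The multiplier of the negative term. -/
def piF (w : ℝ) : ℝ := (72 * (14 - 5 * w) ^ 2 + 932 * (w * (14 - 5 * w)) + 25 * w ^ 2) / 784
/-- The multiplier of the star after the channel. -/
def lamN (w : ℝ) : ℝ := (80 + (7 * w + (-(28 * w ^ 2) + 11 * w ^ 3))) / 40
/-- Slope of the line for the positive term. -/
def qT (w : ℝ) : ℝ := dP 0 11 (11 * w / 12)
/-- Slope of the line for the negative term. -/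
def qF (w : ℝ) : ℝ := dP 0 10 (3 * w / 4)
/-- The constant term. -/
def ffN (w : ℝ) : ℝ := piT w * gP 0 11 (11 * w / 12) - piF w * gP 0 10 (3 * w / 4) - 213 / 4 * gP 0 12 w

/-- Expression for the Bernstein factor. -/
def eOm (V : PE) : PE := PE.add (c 14) (neg (PE.mul (c 5) V))
/-- Expression: `392 * piT`. -/
def ePT (V : PE) : PE :=
  PE.add (PE.mul (c 150) (PE.pow (eOm V) 2)) (PE.add (PE.mul (c 1584) (PE.mul V (eOm V))) (PE.mul (c 2925) (PE.pow V 2)))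
/-- Expression: `784 * piF`. -/
def ePF (V : PE) : PE :=
  PE.add (PE.mul (c 72) (PE.pow (eOm V) 2)) (PE.add (PE.mul (c 932) (PE.mul V (eOm V))) (PE.mul (c 25) (PE.pow V 2)))
/-- Expression: `40 * lamN`. -/
def eLm (V : PE) : PE :=
  PE.add (c 80) (PE.add (PE.mul (c 7) V) (PE.add (neg (PE.mul (c 28) (PE.pow V 2))) (PE.mul (c 11) (PE.pow V 3))))
/-- Expression: `10! * 12 ^ 10 * qT`. -/
def eQT (V : PE) : PE := eDP (c 0) (PE.mul (c 11) V) (c 12) 10
/-- Expression: `9! * 4 ^ 9 * qF`. -/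
def eQF (V : PE) : PE := eDP (c 0) (PE.mul (c 3) V) (c 4) 9
/-- Expression: `11! * 12 ^ 11 * gP`. -/
def eGT (V : PE) : PE := eP (c 0) (PE.mul (c 11) V) (c 12) 11
/-- Expression: `10! * 4 ^ 10 * gP`. -/
def eGF (V : PE) : PE := eP (c 0) (PE.mul (c 3) V) (c 4) 10
/-- Expression: `12! * gP`. -/
def eGS (V : PE) : PE := eP (c 0) V (c 1) 12

section evalM
variable (x : ℕ → ℝ) (V : PE)

theorem eval_eOm : evalR x (eOm V) = 14 - 5 * evalR x V := by
  simp only [eOm, evalR]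
  push_cast
  ring

theorem eval_ePT : evalR x (ePT V) = 392 * piT (evalR x V) := by
  simp only [ePT, evalR, eval_eOm, piT]
  push_cast
  ring

theorem eval_ePF : evalR x (ePF V) = 784 * piF (evalR x V) := by
  simp only [ePF, evalR, eval_eOm, piF]
  push_cast
  ring

theorem eval_eLm : evalR x (eLm V) = 40 * lamN (evalR x V) := by
  simp only [eLm, evalR, lamN]
  push_cast
  ring

theorem eval_eQT : evalR x (eQT V) = 224685731296051200 * qT (evalR x V) := by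
  have := eval_eDP x (c 0) (PE.mul (c 11) V) (c 12) (by simp [evalR]) 10
  simp only [eQT, this, qT, evalR, Nat.cast_zero]
  norm_num [Nat.factorial]

theorem eval_eQF : evalR x (eQF V) = 95126814720 * qF (evalR x V) := by
  have := eval_eDP x (c 0) (PE.mul (c 3) V) (c 4) (by simp [evalR]) 9
  simp only [eQF, this, qF, evalR, Nat.cast_zero]
  norm_num [Nat.factorial]

theorem eval_eGT : evalR x (eGT V) = 29658516531078758400 * gP 0 11 (11 * evalR x V / 12) := by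
  have := eval_eP x (c 0) (PE.mul (c 11) V) (c 12) (by simp [evalR]) 11
  simp only [eGT, this, evalR, Nat.cast_zero]
  norm_num [Nat.factorial]

theorem eval_eGF : evalR x (eGF V) = 3805072588800 * gP 0 10 (3 * evalR x V / 4) := by
  have := eval_eP x (c 0) (PE.mul (c 3) V) (c 4) (by simp [evalR]) 10
  simp only [eGF, this, evalR, Nat.cast_zero]
  norm_num [Nat.factorial]

theorem eval_eGS : evalR x (eGS V) = 479001600 * gP 0 12 (evalR x V) := by
  have := eval_eP x (c 0) V (c 1) (by simp [evalR]) 12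
  simp only [eGS, this, evalR, Nat.cast_zero]
  norm_num [Nat.factorial]

end evalM

end Vale.Agent.Lib.P154N
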