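import Vale.Agent.Lib.P154N.FitsG
import Vale.Agent.Lib.P154N.CheckS

/-!
The fits on sorted triples, from the kernel checks.
-/

noncomputable section

namespace Vale.Agent.Lib.P154N

open Vale.Agent.Lib.Common.Kron Vale.Agent.Lib.Common.Kron.PE Vale.Agent.Lib.P154M

theorem ok_root2 : Ok2 root2 := by
  refine ⟨⟨?_, ?_, ?_, ?_⟩, ?_, ?_, ?_, ?_, ?_, ?_⟩ <;> simp [root2, Iv.cmem]

theorem ok_rootC : Ok2 rootC := by
  refine ⟨⟨?_, ?_, ?_, ?_⟩, ?_, ?_, ?_, ?_, ?_, ?_⟩ <;> simp [rootC, Iv.cmem]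

theorem ok_rootQ0 : Ok2 rootQ0 := by
  refine ⟨⟨?_, ?_, ?_, ?_⟩, ?_, ?_, ?_, ?_, ?_, ?_⟩ <;> simp [rootQ0, Iv.cmem]
theorem ok_rootQ1 : Ok2 rootQ1 := by
  refine ⟨⟨?_, ?_, ?_, ?_⟩, ?_, ?_, ?_, ?_, ?_, ?_⟩ <;> simp [rootQ1, Iv.cmem]
theorem ok_rootQ2 : Ok2 rootQ2 := by
  refine ⟨⟨?_, ?_, ?_, ?_⟩, ?_, ?_, ?_, ?_, ?_, ?_⟩ <;> simp [rootQ2, Iv.cmem]
theorem ok_rootQ3 : Ok2 rootQ3 := by
  refine ⟨⟨?_, ?_, ?_, ?_⟩, ?_, ?_, ?_, ?_, ?_, ?_⟩ <;> simp [rootQ3, Iv.cmem]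

theorem cmem01 {x : ℝ} (h0 : 0 ≤ x) (h1 : x ≤ 1) : Iv.cmem ⟨0, 1, 1⟩ x := by
  constructor <;> simpa

/-! ### Lower fits before the channel -/

/-- A lower fit on sorted triples. -/
theorem a_fit {D s : ℕ} {a' b' d e : ℤ} {L : L2} (hL : wtLe 8 L = true) {r : PE}
    (h : ∃ T, checkT (eLow D s a' b' d e 8 L) r [49, 49, 1, 1] T root2 = true) {a b c' : ℝ} (ha : 0 ≤ a) (hab : a ≤ b)
    (hbc : b ≤ c') (hs : a + b + c' = 3) (hr : ∀ p q, a = cA p q → 0 < evalR (xv p q 0 0) r) :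
    (s : ℝ) * ev2 L (3 * sS a b c') (yS a b c') ≤ (D : ℝ) * vF a' b' d e a b c' := by
  obtain ⟨p, q, hp0, hp1, hq0, hq1, ea, eb, ec⟩ := chart_s ha hab hbc hs
  have := low_fit (by norm_num) hL ok_root2 h hp0 hq0 (cmem01 hp0 hp1) (cmem01 hq0 hq1) (hr p q ea)
  rw [← ea, ← eb, ← ec] at this
  exact this

section pieces
variable {a b c' : ℝ}

theorem reg1 (hx : 9 / 200 < a) (p q : ℝ) (e : a = cA p q) : 0 < evalR (xv p q 0 0) (regGe 9 200) := by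
  refine regGe_pos _ ?_
  change ((9 : ℕ) : ℝ) < ((200 : ℕ) : ℝ) * cA p q
  rw [← e]
  push_cast
  linarith

theorem reg2 (hx : 9 / 500 < a) (hx' : a < 11 / 200) (p q : ℝ) (e : a = cA p q) :
    0 < evalR (xv p q 0 0) (regBand 9 500 11 200) := by
  refine regBand_pos _ ?_ ?_
  · change ((9 : ℕ) : ℝ) < ((500 : ℕ) : ℝ) * cA p q
    rw [← e]
    push_cast
    linarith
  · change ((200 : ℕ) : ℝ) * cA p q < ((11 : ℕ) : ℝ)
    rw [← e]
    push_cast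
    linarith

theorem reg3 (hx : 9 / 2000 < a) (hx' : a < 11 / 500) (p q : ℝ) (e : a = cA p q) :
    0 < evalR (xv p q 0 0) (regBand 9 2000 11 500) := by
  refine regBand_pos _ ?_ ?_
  · change ((9 : ℕ) : ℝ) < ((2000 : ℕ) : ℝ) * cA p q
    rw [← e]
    push_cast
    linarith
  · change ((500 : ℕ) : ℝ) * cA p q < ((11 : ℕ) : ℝ)
    rw [← e]
    push_cast
    linarith

theorem reg4 (hx' : a < 11 / 2000) (p q : ℝ) (e : a = cA p q) : 0 < evalR (xv p q 0 0) (regLe 11 2000) := by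
  refine regLe_pos _ ?_
  change ((2000 : ℕ) : ℝ) * cA p q < ((11 : ℕ) : ℝ)
  rw [← e]
  push_cast
  linarith

end pieces

/-- The value of the three control points in terms of the combinations. -/
theorem aS_of {x y z w l0 l1 l2 : ℝ} (hw0 : 0 ≤ w) (hw1 : w ≤ 14 / 5) (h0 : 4 * l0 ≤ Da * vF 15 72 (-150) 639 x y z)
    (h1 : 20 * l1 ≤ Da * vF 53 466 (-792) 3195 x y z) (h2 : 4 * l2 ≤ Da * vF 20 1 (-117) 639 x y z) :
    ((14 - 5 * w) ^ 2 * l0 + 10 * (w * (14 - 5 * w)) * l1 + 25 * w ^ 2 * l2) / (196 * Da) ≤ aS w x y z := by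
  have hD : (0 : ℝ) < Da := by norm_num [Da]
  have hom : 0 ≤ 14 - 5 * w := by linarith
  have e : 196 * aS w x y z = (14 - 5 * w) ^ 2 * (vF 15 72 (-150) 639 x y z / 4)
      + 10 * (w * (14 - 5 * w)) * (vF 53 466 (-792) 3195 x y z / 20) + 25 * w ^ 2 * (vF 20 1 (-117) 639 x y z / 4) := by
    unfold aS piT piF ph1 ph2 ph3 vF
    push_cast
    ring
  rw [div_le_iff₀ (by positivity)]
  have k0 : l0 ≤ Da * (vF 15 72 (-150) 639 x y z / 4) := by linarith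
  have k1 : l1 ≤ Da * (vF 53 466 (-792) 3195 x y z / 20) := by linarith
  have k2 : l2 ≤ Da * (vF 20 1 (-117) 639 x y z / 4) := by linarith
  have m0 := mul_le_mul_of_nonneg_left k0 (sq_nonneg (14 - 5 * w))
  have m1 := mul_le_mul_of_nonneg_left k1 (by positivity : 0 ≤ 10 * (w * (14 - 5 * w)))
  have m2 := mul_le_mul_of_nonneg_left k2 (by positivity : 0 ≤ 25 * w ^ 2)
  have : aS w x y z * (196 * Da) = Da * (196 * aS w x y z) := by ring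
  rw [this, e]
  nlinarith

section fits
variable {a b c' w : ℝ} (hw0 : 0 ≤ w) (hw1 : w ≤ 14 / 5) (ha : 0 ≤ a) (hab : a ≤ b) (hbc : b ≤ c') (hs : a + b + c' = 3)
include hw0 hw1 ha hab hbc hs

theorem piece1 (hx : 9 / 200 < a) :
    ((14 - 5 * w) ^ 2 * ev2 Lk1v0 (3 * sS a b c') (yS a b c') + 10 * (w * (14 - 5 * w)) * ev2 Lk1v1 (3 * sS a b c') (yS a b c')
      + 25 * w ^ 2 * ev2 Lk1v2 (3 * sS a b c') (yS a b c')) / (196 * Da) ≤ aS w a b c' :=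
  aS_of hw0 hw1 (a_fit (by decide) hLk1v0 ha hab hbc hs (reg1 hx)) (a_fit (by decide) hLk1v1 ha hab hbc hs (reg1 hx))
    (a_fit (by decide) hLk1v2 ha hab hbc hs (reg1 hx))

theorem piece2 (hx : 9 / 500 < a) (hx' : a < 11 / 200) :
    ((14 - 5 * w) ^ 2 * ev2 Lk2v0 (3 * sS a b c') (yS a b c') + 10 * (w * (14 - 5 * w)) * ev2 Lk2v1 (3 * sS a b c') (yS a b c')
      + 25 * w ^ 2 * ev2 Lk2v2 (3 * sS a b c') (yS a b c')) / (196 * Da) ≤ aS w a b c' :=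
  aS_of hw0 hw1 (a_fit (by decide) hLk2v0 ha hab hbc hs (reg2 hx hx'))
    (a_fit (by decide) hLk2v1 ha hab hbc hs (reg2 hx hx')) (a_fit (by decide) hLk2v2 ha hab hbc hs (reg2 hx hx'))

theorem piece3 (hx : 9 / 2000 < a) (hx' : a < 11 / 500) :
    ((14 - 5 * w) ^ 2 * ev2 Lk3v0 (3 * sS a b c') (yS a b c') + 10 * (w * (14 - 5 * w)) * ev2 Lk3v1 (3 * sS a b c') (yS a b c')
      + 25 * w ^ 2 * ev2 Lk3v2 (3 * sS a b c') (yS a b c')) / (196 * Da) ≤ aS w a b c' :=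
  aS_of hw0 hw1 (a_fit (by decide) hLk3v0 ha hab hbc hs (reg3 hx hx'))
    (a_fit (by decide) hLk3v1 ha hab hbc hs (reg3 hx hx')) (a_fit (by decide) hLk3v2 ha hab hbc hs (reg3 hx hx'))

theorem piece4 (hx' : a < 11 / 2000) :
    ((14 - 5 * w) ^ 2 * ev2 Lk4v0 (3 * sS a b c') (yS a b c') + 10 * (w * (14 - 5 * w)) * ev2 Lk4v1 (3 * sS a b c') (yS a b c')
      + 25 * w ^ 2 * ev2 Lk4v2 (3 * sS a b c') (yS a b c')) / (196 * Da) ≤ aS w a b c' :=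
  aS_of hw0 hw1 (a_fit (by decide) hLk4v0 ha hab hbc hs (reg4 hx')) (a_fit (by decide) hLk4v1 ha hab hbc hs (reg4 hx'))
    (a_fit (by decide) hLk4v2 ha hab hbc hs (reg4 hx'))

end fits

/-! ### Fits after the channel, away from the vertices -/

/-- The cell for the fits after the channel. -/
theorem child_cell {a b c' p q : ℝ} (hab : a ≤ b) (hbc : b ≤ c') (hs : a + b + c' = 3) (h1 : 4 / 25 ≤ a) (h2 : c' < 3 / 2)
    (hp0 : 0 ≤ p) (hp1 : p ≤ 1) (hq0 : 0 ≤ q) (hq1 : q ≤ 1) (ea : a = cA p q) (eb : b = cB p q) (ec : c' = cC p q) :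
    Iv.cmem ⟨17, 25, 25⟩ p ∧ Iv.cmem ⟨89, 100, 100⟩ q := by
  have hc := cC_pos p q
  rw [← ec] at hc
  have e1 : a = c' * (p * q) ^ 6 := by
    rw [ea, ec, cA_eq]
  have e2 : b = c' * q ^ 6 := by
    rw [eb, ec, cB_eq]
  have hX : (8 / 75 : ℝ) ≤ (p * q) ^ 6 := by
    have hX0 : 0 ≤ (p * q) ^ 6 := by positivity
    nlinarith
  have hpX : (p * q) ^ 6 ≤ p ^ 6 := by
    rw [mul_pow]
    have : q ^ 6 ≤ 1 := pow_le_one₀ hq0 hq1
    have h6 : 0 ≤ p ^ 6 := by positivity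
    nlinarith
  have hq6 : (1 / 2 : ℝ) ≤ q ^ 6 := by
    have hq0' : 0 ≤ q ^ 6 := by positivity
    nlinarith
  constructor
  · refine cmem_of (a := 17 / 25) (b := 1) (by norm_num) (by norm_num) ?_ hp1
    exact pow6_le (by norm_num) hp0 (by norm_num; linarith)
  · refine cmem_of (a := 89 / 100) (b := 1) (by norm_num) (by norm_num) ?_ hq1
    exact pow6_le (by norm_num) hq0 (by norm_num; linarith)

section child
variable {a b c' : ℝ} (ha : 0 ≤ a) (hab : a ≤ b) (hbc : b ≤ c') (hs : a + b + c' = 3) (h1 : 4 / 25 ≤ a) (h2 : c' < 3 / 2)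
include ha hab hbc hs h1 h2

theorem fit_up {D s : ℕ} {a' b' d e : ℤ} {L : L2} (hL : wtLe 10 L = true)
    (h : ∃ T, checkT (eUp D s a' b' d e 10 L) (regMgt 2 1) [61, 61, 1, 1] T rootC = true) :
    (D : ℝ) * vF a' b' d e a b c' ≤ (s : ℝ) * ev2 L (3 * sS a b c') (yS a b c') := by
  obtain ⟨p, q, hp0, hp1, hq0, hq1, ea, eb, ec⟩ := chart_s ha hab hbc hs
  obtain ⟨m0, m1⟩ := child_cell hab hbc hs h1 h2 hp0 hp1 hq0 hq1 ea eb ec
  have := up_fit (by norm_num) hL ok_rootC h hp0 hq0 m0 m1 (regM_of ec (by push_cast; linarith))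
  rw [← ea, ← eb, ← ec] at this
  exact this

theorem fit_ee2 : (Du : ℝ) * ee2 a b c' ≤ ev2 Ue2 (3 * sS a b c') (yS a b c') := by
  have := fit_up ha hab hbc hs h1 h2 (by decide) hUe2
  rw [vF_ee2] at this
  push_cast at this
  linarith

theorem fit_ee1 : (Du : ℝ) * (-ee1 a b c') ≤ ev2 Ue1 (3 * sS a b c') (yS a b c') := by
  have := fit_up ha hab hbc hs h1 h2 (by decide) hUe1
  rw [vF_ee1m] at this
  push_cast at this
  linarith

theorem fit_ph3 : (Du : ℝ) * ph3 a b c' ≤ ev2 U3 (3 * sS a b c') (yS a b c') := by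
  have := fit_up ha hab hbc hs h1 h2 (by decide) hU3
  rw [vF_ph3] at this
  push_cast at this
  linarith

theorem fit_sq : ee1 a b c' ^ 2 ≤ 37 / 100000 * sS a b c' ^ 3 := by
  obtain ⟨p, q, hp0, hp1, hq0, hq1, ea, eb, ec⟩ := chart_s ha hab hbc hs
  obtain ⟨m0, m1⟩ := child_cell hab hbc hs h1 h2 hp0 hp1 hq0 hq1 ea eb ec
  obtain ⟨T, hT⟩ := hE
  have h0 := tree_nonneg ok_rootC.good ok_rootC.l0 ok_rootC.l1 ok_rootC.l2 ok_rootC.l3 hT m0 m1 ok_rootC.m2 ok_rootC.m3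
    (regM_of ec (by push_cast; linarith))
  have hM := chM_pos p q
  have hX : 0 ≤ p * q := mul_nonneg hp0 hq0
  simp only [eHE, evalR, eval_xPw, eval_xForm, eval_xSN, eval_chX1, eval_chX2, eval_chX3] at h0
  simp only [show xv p q 0 0 0 = p from rfl, show xv p q 0 0 1 = q from rfl] at h0
  have e1 : rPw 6 (p * q) q 1 = chM p q := rfl
  rw [← ee1_val hX hq0 zero_le_one hM] at h0
  have hS := sS_val (X := p * q) (Y := q) (Z := 1) hM.ne'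
  have hSN : rSN (p * q) q 1 = 3 * sS a b c' * chM p q ^ 2 := by
    change 3 * sS (cA p q) (cB p q) (cC p q) = rSN (p * q) q 1 / chM p q ^ 2 at hS
    rw [ea, eb, ec, hS]
    field_simp
  rw [hSN] at h0
  have ea'' : 3 / rPw 6 (p * q) q 1 * (p * q) ^ 6 = a := ea.symm
  have eb'' : 3 / rPw 6 (p * q) q 1 * q ^ 6 = b := eb.symm
  have ec'' : 3 / rPw 6 (p * q) q 1 * 1 ^ 6 = c' := ec.symm
  rw [ea'', eb'', ec'', e1] at h0
  push_cast at h0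
  have hMp : 0 < chM p q ^ 6 := by positivity
  have : 0 ≤ 43200000 * chM p q ^ 6 * (37 / 100000 * sS a b c' ^ 3 - ee1 a b c' ^ 2) := by
    calc (0 : ℝ) ≤ _ := h0
      _ = _ := by ring
  have h5 := nonneg_of_mul_nonneg_right this (by positivity)
  linarith

end child

/-! ### Fits after the channel, near the vertices -/

/-- The cell for the fits near the vertices. -/
theorem block_cell {pl ph β1 β2 a b c' p q : ℝ} (hpl : 0 ≤ pl) (hph : 0 ≤ ph) (k1 : pl ^ 6 * 3 ≤ (2 + pl ^ 6) * β1)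
    (k2 : β2 ≤ ph ^ 6 * (3 - β2 - 597 / 400)) (k3 : (49 / 50 : ℝ) ^ 6 * (597 / 400) ≤ 3 - β2 - 597 / 400)
    (hab : a ≤ b) (hbc : b ≤ c') (hs : a + b + c' = 3) (h1 : β1 ≤ a) (h2 : a ≤ β2) (h3 : c' ≤ 597 / 400)
    (hp0 : 0 ≤ p) (hq0 : 0 ≤ q) (ea : a = cA p q) (eb : b = cB p q) (ec : c' = cC p q) :
    pl ≤ p ∧ p ≤ ph ∧ 49 / 50 ≤ q := by
  have hc := cC_pos p q
  rw [← ec] at hc
  have e1 : a = p ^ 6 * b := by
    rw [ea, eb, cA_eq, cB_eq, mul_pow]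
    ring
  have e2 : b = c' * q ^ 6 := by
    rw [eb, ec, cB_eq]
  have hpos : 0 < 3 - β2 - 597 / 400 := lt_of_lt_of_le (by positivity) k3
  have hb1 : 3 - β2 - 597 / 400 ≤ b := by linarith
  have hb2 : b ≤ (3 - a) / 2 := by linarith
  have hbpos : 0 < b := by linarith
  have hp6 : 0 ≤ p ^ 6 := by positivity
  have hpl6 : 0 ≤ pl ^ 6 := by positivity
  refine ⟨pow6_le hpl hp0 ?_, pow6_le hp0 hph ?_, pow6_le (by norm_num) hq0 ?_⟩
  · have : pl ^ 6 * b ≤ p ^ 6 * b := by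
      rw [← e1]
      have k4 : pl ^ 6 * b ≤ pl ^ 6 * ((3 - a) / 2) := mul_le_mul_of_nonneg_left hb2 hpl6
      have k5 : (2 + pl ^ 6) * β1 ≤ (2 + pl ^ 6) * a := mul_le_mul_of_nonneg_left h1 (by linarith)
      nlinarith
    exact le_of_mul_le_mul_right this hbpos
  · have k4 : p ^ 6 * (3 - β2 - 597 / 400) ≤ p ^ 6 * b := mul_le_mul_of_nonneg_left hb1 hp6
    have : p ^ 6 * (3 - β2 - 597 / 400) ≤ ph ^ 6 * (3 - β2 - 597 / 400) := by
      rw [← e1] at k4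
      linarith
    exact le_of_mul_le_mul_right this hpos
  · have hq6 : 0 ≤ q ^ 6 := by positivity
    have k4 : q ^ 6 * c' ≤ q ^ 6 * (597 / 400) := mul_le_mul_of_nonneg_left h3 hq6
    have : (49 / 50 : ℝ) ^ 6 * (597 / 400) ≤ q ^ 6 * (597 / 400) := by
      have : q ^ 6 * c' = b := by rw [e2]; ring
      linarith
    exact le_of_mul_le_mul_right this (by norm_num)

/-- The fits near the vertices, on one block. -/
structure BlockFit (Q2 Q1 Q3 E1 : L2) (C : Cell) (β1 β2 : ℝ) : Prop where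
  h2 : ∃ T, checkT (eQUp Dq 12 1 0 (-6) 33 3 Q2) (regMgt 1199 597) [19, 19, 1, 1] T C = true
  h1 : ∃ T, checkT (eQUp Dq 4 (-1) 4 0 (-9) 3 Q1) (regMgt 1199 597) [19, 19, 1, 1] T C = true
  h3 : ∃ T, checkT (eQUp Dq 1 1 0 0 (-3) 3 Q3) (regMgt 1199 597) [19, 19, 1, 1] T C = true
  hp : ∃ T, checkT (eQUp Dq 4 1 (-4) 0 9 1 E1) (regMgt 1199 597) [7, 7, 1, 1] T C = true
  hm : ∃ T, checkT (eQUp Dq 4 (-1) 4 0 (-9) 1 E1) (regMgt 1199 597) [7, 7, 1, 1] T C = true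
  d2 : degLe 3 Q2 = true
  d1 : degLe 3 Q1 = true
  d3 : degLe 3 Q3 = true
  de : degLe 1 E1 = true
  ok : Ok2 C
  i1 : C.i1 = ⟨49, 50, 50⟩
  cell : ∀ {a b c' p q : ℝ}, a ≤ b → b ≤ c' → a + b + c' = 3 → β1 ≤ a → a ≤ β2 → c' ≤ 597 / 400 → 0 ≤ p → 0 ≤ q →
    a = cA p q → b = cB p q → c' = cC p q → C.i0.cmem p ∧ 49 / 50 ≤ q

section block
variable {Q2 Q1 Q3 E1 : L2} {C : Cell} {β1 β2 : ℝ} (hB : BlockFit Q2 Q1 Q3 E1 C β1 β2)
  {a b c' : ℝ} (ha : 0 ≤ a) (hab : a ≤ b) (hbc : b ≤ c') (hs : a + b + c' = 3) (h1 : β1 ≤ a) (h2 : a ≤ β2)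
  (h3 : c' ≤ 597 / 400)
include hB ha hab hbc hs h1 h2 h3

theorem block_fit {s : ℕ} {a' b' d e : ℤ} {dd : ℕ} (hd : 1 ≤ dd) {Q : L2} (hQ : degLe dd Q = true) {rad : List ℕ}
    (h : ∃ T, checkT (eQUp Dq s a' b' d e dd Q) (regMgt 1199 597) rad T C = true) :
    (Dq : ℝ) * vF a' b' d e a b c' ≤ (s : ℝ) * ev2 Q a 1 := by
  obtain ⟨p, q, hp0, hp1, hq0, hq1, ea, eb, ec⟩ := chart_s ha hab hbc hs
  obtain ⟨m0, m1⟩ := hB.cell hab hbc hs h1 h2 h3 hp0 hq0 ea eb ec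
  have m2 : C.i1.cmem q := by
    rw [hB.i1]
    exact cmem_of (a := 49 / 50) (b := 1) (by norm_num) (by norm_num) m1 hq1
  have := q_fit hd hQ hB.ok h hp0 hq0 m0 m2 (regM_of ec (by push_cast; linarith))
  rw [← ea, ← eb, ← ec] at this
  exact this

theorem block_ee2 : (Dq : ℝ) * ee2 a b c' ≤ ev2 Q2 a 1 := by
  have := block_fit hB ha hab hbc hs h1 h2 h3 (by norm_num) hB.d2 hB.h2
  rw [vF_ee2] at this
  push_cast at this
  linarith

theorem block_ee1 : (Dq : ℝ) * (-ee1 a b c') ≤ ev2 Q1 a 1 := by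
  have := block_fit hB ha hab hbc hs h1 h2 h3 (by norm_num) hB.d1 hB.h1
  rw [vF_ee1m] at this
  push_cast at this
  linarith

theorem block_ph3 : (Dq : ℝ) * ph3 a b c' ≤ ev2 Q3 a 1 := by
  have := block_fit hB ha hab hbc hs h1 h2 h3 (by norm_num) hB.d3 hB.h3
  rw [vF_ph3] at this
  push_cast at this
  linarith

theorem block_abs : (Dq : ℝ) * |ee1 a b c'| ≤ ev2 E1 a 1 := by
  have k1 := block_fit hB ha hab hbc hs h1 h2 h3 (by norm_num) hB.de hB.hp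
  have k2 := block_fit hB ha hab hbc hs h1 h2 h3 (by norm_num) hB.de hB.hm
  rw [vF_ee1] at k1
  rw [vF_ee1m] at k2
  push_cast at k1 k2
  rcases abs_cases (ee1 a b c') with ⟨e, _⟩ | ⟨e, _⟩ <;> rw [e] <;> linarith

end block

theorem block0 : BlockFit Qe2b0 Qe1b0 Q3b0 Ep0 rootQ0 (3 / 200) (3 / 100) := by
  refine ⟨hQe2b0, hQe1b0, hQ3b0, hEpb0, hEmb0, by decide, by decide, by decide, by decide, ok_rootQ0, rfl, ?_⟩
  intro a b c' p q hab hbc hs h1 h2 h3 hp0 hq0 ea eb ec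
  obtain ⟨k1, k2, k3⟩ := block_cell (pl := 464 / 1000) (ph := 523 / 1000) (β1 := 3 / 200) (β2 := 3 / 100) (by norm_num)
    (by norm_num) (by norm_num) (by norm_num) (by norm_num) hab hbc hs h1 h2 h3 hp0 hq0 ea eb ec
  exact ⟨cmem_of (a := 464 / 1000) (b := 523 / 1000) (by simp [rootQ0]) (by simp [rootQ0]) k1 k2, k3⟩

theorem block1 : BlockFit Qe2b1 Qe1b1 Q3b1 Ep1 rootQ1 (3 / 100) (6 / 100) := by
  refine ⟨hQe2b1, hQe1b1, hQ3b1, hEpb1, hEmb1, by decide, by decide, by decide, by decide, ok_rootQ1, rfl, ?_⟩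
  intro a b c' p q hab hbc hs h1 h2 h3 hp0 hq0 ea eb ec
  obtain ⟨k1, k2, k3⟩ := block_cell (pl := 521 / 1000) (ph := 589 / 1000) (β1 := 3 / 100) (β2 := 6 / 100) (by norm_num)
    (by norm_num) (by norm_num) (by norm_num) (by norm_num) hab hbc hs h1 h2 h3 hp0 hq0 ea eb ec
  exact ⟨cmem_of (a := 521 / 1000) (b := 589 / 1000) (by simp [rootQ1]) (by simp [rootQ1]) k1 k2, k3⟩

theorem block2 : BlockFit Qe2b2 Qe1b2 Q3b2 Ep2 rootQ2 (6 / 100) (1 / 10) := by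
  refine ⟨hQe2b2, hQe1b2, hQ3b2, hEpb2, hEmb2, by decide, by decide, by decide, by decide, ok_rootQ2, rfl, ?_⟩
  intro a b c' p q hab hbc hs h1 h2 h3 hp0 hq0 ea eb ec
  obtain ⟨k1, k2, k3⟩ := block_cell (pl := 586 / 1000) (ph := 645 / 1000) (β1 := 6 / 100) (β2 := 1 / 10) (by norm_num)
    (by norm_num) (by norm_num) (by norm_num) (by norm_num) hab hbc hs h1 h2 h3 hp0 hq0 ea eb ec
  exact ⟨cmem_of (a := 586 / 1000) (b := 645 / 1000) (by simp [rootQ2]) (by simp [rootQ2]) k1 k2, k3⟩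

theorem block3 : BlockFit Qe2b3 Qe1b3 Q3b3 Ep3 rootQ3 (1 / 10) (4 / 25) := by
  refine ⟨hQe2b3, hQe1b3, hQ3b3, hEpb3, hEmb3, by decide, by decide, by decide, by decide, ok_rootQ3, rfl, ?_⟩
  intro a b c' p q hab hbc hs h1 h2 h3 hp0 hq0 ea eb ec
  obtain ⟨k1, k2, k3⟩ := block_cell (pl := 640 / 1000) (ph := 702 / 1000) (β1 := 1 / 10) (β2 := 4 / 25) (by norm_num)
    (by norm_num) (by norm_num) (by norm_num) (by norm_num) hab hbc hs h1 h2 h3 hp0 hq0 ea eb ec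
  exact ⟨cmem_of (a := 640 / 1000) (b := 702 / 1000) (by simp [rootQ3]) (by simp [rootQ3]) k1 k2, k3⟩

end Vale.Agent.Lib.P154N
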