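import Vale.Agent.Lib.P154N.Bulk

/-!
Generic consequences of the kernel checks for the fits on the chart.
-/

noncomputable section

namespace Vale.Agent.Lib.P154N

open Vale.Agent.Lib.Common.Kron Vale.Agent.Lib.Common.Kron.PE Vale.Agent.Lib.P154M

/-- A root cell in the two chart variables. -/
structure Ok2 (C : Cell) : Prop where
  good : C.good
  l0 : C.i0.lo < C.i0.hi
  l1 : C.i1.lo < C.i1.hi
  l2 : C.i2.lo < C.i2.hi
  l3 : C.i3.lo < C.i3.hi
  m2 : C.i2.cmem 0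
  m3 : C.i3.cmem 0

theorem low_fit {D s : ℕ} {a' b' d e : ℤ} {N : ℕ} (hN : 1 ≤ N) {L : L2} (hL : wtLe N L = true) {r : PE} {rad : List ℕ}
    {C : Cell} (hC : Ok2 C) (h : ∃ T, checkT (eLow D s a' b' d e N L) r rad T C = true) {p q : ℝ} (hp0 : 0 ≤ p)
    (hq0 : 0 ≤ q) (hp : C.i0.cmem p) (hq : C.i1.cmem q) (hr : 0 < evalR (xv p q 0 0) r) :
    (s : ℝ) * ev2 L (3 * sS (cA p q) (cB p q) (cC p q)) (yS (cA p q) (cB p q) (cC p q))
      ≤ (D : ℝ) * vF a' b' d e (cA p q) (cB p q) (cC p q) := by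
  obtain ⟨T, hT⟩ := h
  have h0 := tree_nonneg hC.good hC.l0 hC.l1 hC.l2 hC.l3 hT hp hq hC.m2 hC.m3 hr
  rw [eval_eLow (xv p q 0 0) hp0 hq0 D s a' b' d e hN hL] at h0
  simp only [show xv p q 0 0 0 = p from rfl, show xv p q 0 0 1 = q from rfl] at h0
  have hM : 0 < chM p q ^ N := pow_pos (chM_pos p q) N
  have := nonneg_of_mul_nonneg_right h0 hM
  linarith

theorem up_fit {D s : ℕ} {a' b' d e : ℤ} {N : ℕ} (hN : 1 ≤ N) {L : L2} (hL : wtLe N L = true) {r : PE} {rad : List ℕ}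
    {C : Cell} (hC : Ok2 C) (h : ∃ T, checkT (eUp D s a' b' d e N L) r rad T C = true) {p q : ℝ} (hp0 : 0 ≤ p)
    (hq0 : 0 ≤ q) (hp : C.i0.cmem p) (hq : C.i1.cmem q) (hr : 0 < evalR (xv p q 0 0) r) :
    (D : ℝ) * vF a' b' d e (cA p q) (cB p q) (cC p q)
      ≤ (s : ℝ) * ev2 L (3 * sS (cA p q) (cB p q) (cC p q)) (yS (cA p q) (cB p q) (cC p q)) := by
  obtain ⟨T, hT⟩ := h
  have h0 := tree_nonneg hC.good hC.l0 hC.l1 hC.l2 hC.l3 hT hp hq hC.m2 hC.m3 hr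
  rw [eval_eUp (xv p q 0 0) hp0 hq0 D s a' b' d e hN hL] at h0
  simp only [show xv p q 0 0 0 = p from rfl, show xv p q 0 0 1 = q from rfl] at h0
  have hM : 0 < chM p q ^ N := pow_pos (chM_pos p q) N
  have := nonneg_of_mul_nonneg_right h0 hM
  linarith

theorem q_fit {D s : ℕ} {a' b' d e : ℤ} {dd : ℕ} (hd : 1 ≤ dd) {Q : L2} (hQ : degLe dd Q = true) {r : PE}
    {rad : List ℕ} {C : Cell} (hC : Ok2 C) (h : ∃ T, checkT (eQUp D s a' b' d e dd Q) r rad T C = true) {p q : ℝ}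
    (hp0 : 0 ≤ p) (hq0 : 0 ≤ q) (hp : C.i0.cmem p) (hq : C.i1.cmem q) (hr : 0 < evalR (xv p q 0 0) r) :
    (D : ℝ) * vF a' b' d e (cA p q) (cB p q) (cC p q) ≤ (s : ℝ) * ev2 Q (cA p q) 1 := by
  obtain ⟨T, hT⟩ := h
  have h0 := tree_nonneg hC.good hC.l0 hC.l1 hC.l2 hC.l3 hT hp hq hC.m2 hC.m3 hr
  rw [eval_eQUp (xv p q 0 0) hp0 hq0 D s a' b' d e hd hQ] at h0
  simp only [show xv p q 0 0 0 = p from rfl, show xv p q 0 0 1 = q from rfl] at h0
  have hM : 0 < chM p q ^ dd := pow_pos (chM_pos p q) dd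
  have := nonneg_of_mul_nonneg_right h0 hM
  linarith

/-! ### Identities for the combinations -/

theorem vF_ee2 (x y z : ℝ) : vF 1 0 (-6) 33 x y z = 12 * ee2 x y z := by
  unfold vF ee2 ph2 ph3
  push_cast
  ring

theorem vF_ee1m (x y z : ℝ) : vF (-1) 4 0 (-9) x y z = 4 * (-ee1 x y z) := by
  unfold vF ee1 ph1 ph3
  push_cast
  ring

theorem vF_ee1 (x y z : ℝ) : vF 1 (-4) 0 9 x y z = 4 * ee1 x y z := by
  unfold vF ee1 ph1 ph3
  push_cast
  ring

theorem vF_ph3 (x y z : ℝ) : vF 1 0 0 (-3) x y z = ph3 x y z := by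
  unfold vF ph3
  push_cast
  ring

/-! ### Facts about the chart -/

section chart
variable {p q : ℝ}

theorem cA_eq (p q : ℝ) : cA p q = cC p q * (p * q) ^ 6 := by
  unfold cA cC
  ring

theorem cB_eq (p q : ℝ) : cB p q = cC p q * q ^ 6 := by
  unfold cB cC
  ring

theorem cC_pos (p q : ℝ) : 0 < cC p q := by
  unfold cC
  have := chM_pos p q
  positivity

theorem chM_eq (p q : ℝ) : chM p q * cC p q = 3 := by
  unfold cC
  have := chM_pos p q
  field_simp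

theorem pow6_le {x y : ℝ} (hx : 0 ≤ x) (hy : 0 ≤ y) (h : x ^ 6 ≤ y ^ 6) : x ≤ y :=
  (pow_le_pow_iff_left₀ hx hy (by norm_num)).1 h

/-- Membership of a closed interval. -/
theorem cmem_of {I : Iv} {x a b : ℝ} (ha : (I.lo : ℝ) / I.den = a) (hb : (I.hi : ℝ) / I.den = b)
    (h0 : a ≤ x) (h1 : x ≤ b) : I.cmem x := by
  constructor
  · rw [ha]
    exact h0
  · rw [hb]
    exact h1

/-- The region for the largest coordinate. -/
theorem regM_of {n d : ℕ} {c' p q : ℝ} (hc' : c' = cC p q) (h : (3 : ℝ) * d > n * c') :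
    0 < evalR (xv p q 0 0) (regMgt n d) := by
  refine regMgt_pos (xv p q 0 0) ?_
  change (n : ℝ) < d * chM p q
  have e := chM_eq p q
  rw [hc'] at h
  have hc := cC_pos p q
  by_contra hcon
  push Not at hcon
  have : (d : ℝ) * chM p q * cC p q ≤ n * cC p q := mul_le_mul_of_nonneg_right hcon hc.le
  have e2 : (d : ℝ) * chM p q * cC p q = d * 3 := by
    rw [mul_assoc, e]
  rw [e2] at this
  linarith

end chart

end Vale.Agent.Lib.P154N
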