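import Vale.Agent.Lib.P154Q.Signed
import Vale.Agent.Lib.P154M.SLevel

/-!
The limit argument for the net of one positive and one negative term with the exponents `(3,2,1)/6`, `(4,1,1)/6` and
the star `(2,2,2)/6`, where the recursion function is bounded by lines which need not be tangents.
-/

noncomputable section

namespace Vale.Agent.Lib.P154N

open Filter Topology
open Vale.Agent.Lib.P154 Vale.Agent.Lib.P154P Vale.Agent.Lib.P154.Mellin Vale.Agent.Lib.P154M Vale.Agent.Lib.P154Q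

theorem c1_expN : IsExpN c1 := by
  refine ⟨c1_exp, ?_, ?_, ?_⟩ <;> simp [c1, ex] <;> norm_num

theorem c2_expN : IsExpN c2 := by
  refine ⟨c2_exp, ?_, ?_, ?_⟩ <;> simp [c2, ex] <;> norm_num

theorem c3_expN : IsExpN c3 := by
  refine ⟨c3_exp, ?_, ?_, ?_⟩ <;> simp [c3, ex] <;> norm_num

/-- The pointwise function of the net, with lines. -/
def PhiL (u pT qT vT pF qF vF r S pw Z w : ℝ) (a : Vc) : ℝ :=
  pT * (gg c2 a - qT * GG u c2 a - vT)
    - pF * (gg c1 a - qF * GG u c1 a - vF + 1 / 2 * (GG u c1 a - r * GG u c3 a) ^ 2)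
    + (pw - S * gg c3 a) + Z * (GG u c3 a - w)

section mean

variable {F : (Vc → ℝ) → ℝ} {u : ℝ}

/-- The mean of the pointwise function. -/
theorem mean_PhiL (hF : IsEx F) (h0 : 0 < u) (h1 : u ≤ 1 / 2) {pF : ℝ} (hpF : 0 ≤ pF) (pT qT vT qF vF r S pw Z w : ℝ) :
    F (PhiL u pT qT vT pF qF vF r S pw Z w)
      ≤ pT * ((1 - F (fhat c2)) - qT * wC u c2 F - vT)
        - pF * ((1 - F (fhat c1)) - qF * wC u c1 F - vF + 1 / 2 * (wC u c1 F - r * wC u c3 F) ^ 2)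
        + (pw - S * (1 - F (fhat c3))) + Z * (wC u c3 F - w) := by
  have g1 := bdd_gg c1_exp
  have g2 := bdd_gg c2_exp
  have g3 := bdd_gg c3_exp
  have G1 := bdd_GG h0 h1 c1_exp
  have G2 := bdd_GG h0 h1 c2_exp
  have G3 := bdd_GG h0 h1 c3_exp
  have hd : BddS (fun a => GG u c1 a - r * GG u c3 a) := G1.sub ((BddS.const r).mul G3)
  have hd2 : BddS (fun a => (GG u c1 a - r * GG u c3 a) ^ 2) := hd.pow 2
  have e : PhiL u pT qT vT pF qF vF r S pw Z w = fun a =>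
      pT * gg c2 a + (-(pT * qT)) * GG u c2 a + (-pF) * gg c1 a + (pF * qF) * GG u c1 a
        + (-(pF / 2)) * (GG u c1 a - r * GG u c3 a) ^ 2 + (-S) * gg c3 a + Z * GG u c3 a + 0 * GG u c3 a
        + (-(pT * vT) + pF * vF + pw - Z * w) := by
    funext a
    unfold PhiL
    ring
  rw [e, E_lin9 hF g2 G2 g1 G1 hd2 g3 G3 G3, mean_gg hF c1_exp, mean_gg hF c2_exp, mean_gg hF c3_exp,
    mean_GG hF h0 h1 c1_exp, mean_GG hF h0 h1 c2_exp, mean_GG hF h0 h1 c3_exp]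
  have hJ := hF.sq_le hd
  rw [hF.sub G1 ((BddS.const r).mul G3), hF.const_mul _ _ G3, mean_GG hF h0 h1 c1_exp, mean_GG hF h0 h1 c3_exp] at hJ
  have := mul_le_mul_of_nonneg_left hJ (by positivity : 0 ≤ pF / 2)
  nlinarith

end mean

section limit

variable {E : ℕ → (Vc → ℝ) → ℝ} {u : ℝ} {Gf : ℝ → ℝ}

theorem wC_le_c3 {F : (Vc → ℝ) → ℝ} (hF : IsEx F) (h0 : 0 < u) (h1 : u ≤ 1 / 2) :
    wC u c1 F ≤ wC u c3 F ∧ wC u c2 F ≤ wC u c3 F := by
  have hu2 : 0 < u ^ 2 := by positivity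
  have hl0 : -(1 / 2) ≤ -u := by linarith
  have hl1 : -u ≤ 1 := by linarith
  have B1 := bddF c1_exp h0.le h1
  have B2 := bddF c2_exp h0.le h1
  have B3 := bddF c3_exp h0.le h1
  have hm31 := hF.mono _ _ B3 B1 fun a ha => by
    have hb := Ch_inS hl0 hl1 ha
    rw [fhat_c3, fhat_c1]
    exact f3_le_f1 (hb.1 0) (hb.1 1) (hb.1 2)
  have hm32 := hF.mono _ _ B3 B2 fun a ha => by
    have hb := Ch_inS hl0 hl1 ha
    rw [fhat_c3, fhat_c2]
    exact f3_le_f2 (hb.1 0) (hb.1 1) (hb.1 2)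
  unfold wC
  exact ⟨div_le_div_of_nonneg_right (by linarith) hu2.le, div_le_div_of_nonneg_right (by linarith) hu2.le⟩

/-- The limit theorem. -/
theorem limit_lines (h : RecData E u Gf) {psi : ℝ → ℝ} (hpsi : ∀ y, 0 ≤ y → y ≤ 1 → Gf y = 1 - psi ((1 - y) / u ^ 2))
    (hcont : Continuous psi) {W : ℝ} (hN : ∃ N, wC u c3 (E N) ≤ W)
    (hcert : ∀ w, 0 < w → w ≤ W → ∃ pT qT vT pF qF vF r S pw Z t : ℝ, 0 ≤ pT ∧ 0 ≤ pF ∧ 0 ≤ S ∧ 0 < t ∧
      (∀ y, 0 ≤ y → y ≤ W → psi y ≤ vT + qT * y) ∧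
      (∀ y, 0 ≤ y → y ≤ W → vF + qF * y - 1 / 2 * (y - r * w) ^ 2 ≤ psi y) ∧ pw ≤ S * psi w ∧
      ∀ a, InS a → t ≤ PhiL u pT qT vT pF qF vF r S pw Z w a) :
    Tendsto (fun n => wC u c3 (E n)) atTop (𝓝 0) := by
  have hu0 := h.u_pos
  have hu1 := h.u_le
  obtain ⟨w, hw⟩ := h.wC_conv c3_expN
  obtain ⟨w1, hw1⟩ := h.wC_conv c1_expN
  obtain ⟨w2, hw2⟩ := h.wC_conv c2_expN
  have hw0 : 0 ≤ w := ge_of_tendsto' hw fun n => h.wC_nonneg c3_exp n
  have hw10 : 0 ≤ w1 := ge_of_tendsto' hw1 fun n => h.wC_nonneg c1_exp n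
  have hw20 : 0 ≤ w2 := ge_of_tendsto' hw2 fun n => h.wC_nonneg c2_exp n
  have hwW : w ≤ W := by
    obtain ⟨N, hN⟩ := hN
    exact le_of_tendsto hw ((eventually_ge_atTop N).mono fun n hn => (h.wC_antitone c3_expN hn).trans hN)
  have hw1w : w1 ≤ w := le_of_tendsto_of_tendsto' hw1 hw fun n => (wC_le_c3 (h.isEx n) hu0 hu1).1
  have hw2w : w2 ≤ w := le_of_tendsto_of_tendsto' hw2 hw fun n => (wC_le_c3 (h.isEx n) hu0 hu1).2
  rcases hw0.eq_or_lt with e | hpos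
  · rwa [← e] at hw
  exfalso
  obtain ⟨pT, qT, vT, pF, qF, vF, r, S, pw, Z, t, hpT, hpF, hS, ht, hlT, hlF, hpw, hpt⟩ := hcert w hpos hwW
  have hf1 := h.fhat_limit hpsi hcont c1_exp hw1
  have hf2 := h.fhat_limit hpsi hcont c2_exp hw2
  have hf3 := h.fhat_limit hpsi hcont c3_exp hw
  set A : ℕ → ℝ := fun n => pT * ((1 - E n (fhat c2)) - qT * wC u c2 (E n) - vT)
        - pF * ((1 - E n (fhat c1)) - qF * wC u c1 (E n) - vF + 1 / 2 * (wC u c1 (E n) - r * wC u c3 (E n)) ^ 2)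
        + (pw - S * (1 - E n (fhat c3))) + Z * (wC u c3 (E n) - w) with hA
  have hstep : ∀ n, t ≤ A n := by
    intro n
    have hE := h.isEx n
    have h1 := mean_PhiL (F := E n) hE hu0 hu1 hpF pT qT vT qF vF r S pw Z w
    have b1 : BddS (PhiL u pT qT vT pF qF vF r S pw Z w) := by
      unfold PhiL
      have g1 := bdd_gg c1_exp
      have g2 := bdd_gg c2_exp
      have g3 := bdd_gg c3_exp
      have G1 := bdd_GG hu0 hu1 c1_exp
      have G2 := bdd_GG hu0 hu1 c2_exp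
      have G3 := bdd_GG hu0 hu1 c3_exp
      exact ((((BddS.const _).mul ((g2.sub ((BddS.const _).mul G2)).sub (BddS.const _))).sub
        ((BddS.const _).mul (((g1.sub ((BddS.const _).mul G1)).sub (BddS.const _)).add
          ((BddS.const _).mul ((G1.sub ((BddS.const _).mul G3)).pow 2))))).add
        ((BddS.const _).sub ((BddS.const _).mul g3))).add ((BddS.const _).mul (G3.sub (BddS.const _)))
    have h2 := hE.const_le b1 hpt
    exact h2.trans h1
  set Ainf : ℝ := pT * (psi w2 - qT * w2 - vT) - pF * (psi w1 - qF * w1 - vF + 1 / 2 * (w1 - r * w) ^ 2)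
      + (pw - S * psi w) + Z * (w - w) with hAinf
  have hAl : Tendsto A atTop (𝓝 Ainf) := by
    refine Tendsto.add (Tendsto.add (Tendsto.sub ?_ ?_) (tendsto_const_nhds.sub (hf3.const_mul S)))
      ((hw.sub tendsto_const_nhds).const_mul Z)
    · exact (((hf2.sub (hw2.const_mul qT))).sub tendsto_const_nhds).const_mul pT
    · exact (((hf1.sub (hw1.const_mul qF)).sub tendsto_const_nhds).add
        (((hw1.sub (hw.const_mul r)).pow 2).const_mul _)).const_mul pF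
  have hle : t ≤ Ainf := ge_of_tendsto' hAl hstep
  have b1 := hlT w2 hw20 (hw2w.trans hwW)
  have b2 := hlF w1 hw10 (hw1w.trans hwW)
  have c1' : pT * (psi w2 - qT * w2 - vT) ≤ 0 := mul_nonpos_of_nonneg_of_nonpos hpT (by linarith)
  have c2' : 0 ≤ pF * (psi w1 - qF * w1 - vF + 1 / 2 * (w1 - r * w) ^ 2) := mul_nonneg hpF (by linarith)
  have e0 : Z * (w - w) = 0 := by ring
  rw [hAinf, e0] at hle
  linarith

end limit

end Vale.Agent.Lib.P154N
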