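import Vale.Agent.Lib.P154N.Point

/-!
Nonreconstruction on the critical Poisson tree for `4 / 9 ≤ mu ≤ 197 / 400`, with the star `(2,2,2)/6`.
-/

noncomputable section

namespace Vale.Agent.Lib.P154N

open Filter Topology
open Vale.Agent.Lib.P154 Vale.Agent.Lib.P154P Vale.Agent.Lib.P154.Mellin Vale.Agent.Lib.P154M Vale.Agent.Lib.P154Q

/-! ### The star controls the second moment -/

theorem amgm_c3 {p q r : ℝ} (hp : 0 ≤ p) (hq : 0 ≤ q) (hr : 0 ≤ r) :
    (p ^ 2) ^ ex 2 * (q ^ 2) ^ ex 2 * (r ^ 2) ^ ex 2 ≤ (p * q + p * r + q * r) / 3 := by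
  have h := Real.geom_mean_le_arith_mean3_weighted (w₁ := 1 / 3) (w₂ := 1 / 3) (w₃ := 1 / 3) (by norm_num)
    (by norm_num) (by norm_num) (mul_nonneg hp hq) (mul_nonneg hp hr) (mul_nonneg hq hr) (by norm_num)
  have e : ex 2 = 1 / 3 := by
    unfold ex
    norm_num
  rw [e]
  have e1 (x : ℝ) (hx : 0 ≤ x) : (x ^ 2) ^ (1 / 3 : ℝ) = x ^ (1 / 3 : ℝ) * x ^ (1 / 3 : ℝ) := by
    rw [← Real.rpow_natCast x 2, ← Real.rpow_mul hx, ← Real.rpow_add_of_nonneg hx (by norm_num) (by norm_num)]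
    norm_num
  rw [e1 p hp, e1 q hq, e1 r hr]
  rw [Real.mul_rpow hp hq, Real.mul_rpow hp hr, Real.mul_rpow hq hr] at h
  calc _ = p ^ (1 / 3 : ℝ) * q ^ (1 / 3 : ℝ) * (p ^ (1 / 3 : ℝ) * r ^ (1 / 3 : ℝ)) * (q ^ (1 / 3 : ℝ) * r ^ (1 / 3 : ℝ)) := by
        ring
    _ ≤ _ := h
    _ = _ := by ring

/-- The defect of the star controls the second moment. -/
theorem sF_le_gg3 {a : Vc} (ha : InS a) : sF a ≤ 11 * gg c3 a := by
  have hx := ha.1 0
  have hy := ha.1 1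
  have hz := ha.1 2
  have hs := ha.2
  set p := Real.sqrt (a 0) with hp
  set q := Real.sqrt (a 1) with hq
  set r := Real.sqrt (a 2) with hr
  have p0 : 0 ≤ p := Real.sqrt_nonneg _
  have q0 : 0 ≤ q := Real.sqrt_nonneg _
  have r0 : 0 ≤ r := Real.sqrt_nonneg _
  have ex' : a 0 = p ^ 2 := (Real.sq_sqrt hx).symm
  have ey : a 1 = q ^ 2 := (Real.sq_sqrt hy).symm
  have ez : a 2 = r ^ 2 := (Real.sq_sqrt hz).symm
  have hf : fhat c3 a ≤ (p * q + p * r + q * r) / 3 := by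
    rw [fhat_c3]
    unfold f3
    rw [ex', ey, ez]
    exact amgm_c3 p0 q0 r0
  have hs2 : p ^ 2 + q ^ 2 + r ^ 2 = 3 := by
    rw [← ex', ← ey, ← ez]
    exact hs
  have hS : sF a = ((p ^ 2 - 1) ^ 2 + (q ^ 2 - 1) ^ 2 + (r ^ 2 - 1) ^ 2) / 3 := by
    unfold sF
    rw [ex', ey, ez]
  have hal := sF_alg p0 q0 r0 hs2
  unfold Vale.Agent.Lib.P154Q.gg
  rw [hS]
  linarith

/-- The second moment tends to zero when the star does. -/
theorem sF_tendsto_of_wC3 {E : ℕ → (Vc → ℝ) → ℝ} {u : ℝ} (hE : ∀ n, IsEx (E n)) (h0 : 0 < u) (h1 : u ≤ 1 / 2)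
    (hw : Tendsto (fun n => wC u c3 (E n)) atTop (𝓝 0)) : Tendsto (fun n => E n sF) atTop (𝓝 0) := by
  have hu2 : 0 < u ^ 2 := by positivity
  have hup : Tendsto (fun n => 11 * wC u c3 (E n)) atTop (𝓝 0) := by
    simpa using hw.const_mul 11
  refine tendsto_of_tendsto_of_tendsto_of_le_of_le tendsto_const_nhds hup
    (fun n => (hE n).nonneg bdd_sF fun a _ => sF_nonneg a) fun n => ?_
  have hl0 : -(1 / 2) ≤ -u := by linarith
  have hl1 : -u ≤ 1 := by linarith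
  have hG := bdd_GG h0 h1 c3_exp
  have hb := hE n
  have h2 := hb.mono sF (fun a => 11 * GG u c3 a) bdd_sF ((BddS.const 11).mul hG) fun a ha => by
    have h3 := sF_le_gg3 (Ch_inS (lam := -u) hl0 hl1 ha)
    rw [sF_Ch] at h3
    have e : (-u) ^ 2 = u ^ 2 := by ring
    rw [e] at h3
    unfold Vale.Agent.Lib.P154Q.GG
    rw [mul_div_assoc', le_div_iff₀ hu2]
    linarith
  rw [hb.const_mul _ _ hG, mean_GG hb h0 h1 c3_exp] at h2
  exact h2

/-! ### The starting level -/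

/-- Bound for the star along the channel. -/
theorem c3_chan_le {u : ℝ} (hu0 : 0 < u) (hu1 : u ≤ 197 / 400) {a : Vc} (ha : InS a) :
    1 - (14 / 5) * u ^ 2 ≤ fhat c3 (Ch (-u) a) := by
  have h0 := ha.1 0
  have h1 := ha.1 1
  have h2 := ha.1 2
  have hs := ha.2
  rw [fhat_c3]
  change 1 - (14 / 5) * u ^ 2 ≤ f3 (-u * a 0 + (1 - -u)) (-u * a 1 + (1 - -u)) (-u * a 2 + (1 - -u))
  set x := a 0
  set y := a 1
  set z := a 2
  have hx3 : x ≤ 3 := by linarith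
  have hy3 : y ≤ 3 := by linarith
  have hz3 : z ≤ 3 := by linarith
  have b0 : 0 ≤ -u * x + (1 - -u) := by nlinarith [mul_nonneg hu0.le (sub_nonneg.2 hx3)]
  have b1 : 0 ≤ -u * y + (1 - -u) := by nlinarith [mul_nonneg hu0.le (sub_nonneg.2 hy3)]
  have b2 : 0 ≤ -u * z + (1 - -u) := by nlinarith [mul_nonneg hu0.le (sub_nonneg.2 hz3)]
  set K := 1 - (14 / 5) * u ^ 2 with hK
  have hu2 : u ^ 2 ≤ (197 / 400) ^ 2 := pow_le_pow_left₀ hu0.le hu1 2
  have hK0 : 0 ≤ K := by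
    rw [hK]
    nlinarith
  -- the product
  have hprod : K ^ 3 ≤ (-u * x + (1 - -u)) * (-u * y + (1 - -u)) * (-u * z + (1 - -u)) := by
    have e2 : 0 ≤ x * y + x * z + y * z := by positivity
    have e3 : x * y * z ≤ (x * y + x * z + y * z) / 3 := by
      have h9 : 9 * (x * y * z) ≤ (x + y + z) * (x * y + x * z + y * z) := by
        nlinarith [mul_nonneg h0 (sq_nonneg (y - z)), mul_nonneg h1 (sq_nonneg (x - z)), mul_nonneg h2 (sq_nonneg (x - y))]
      rw [hs] at h9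
      linarith
    have e4 : (-u * x + (1 - -u)) * (-u * y + (1 - -u)) * (-u * z + (1 - -u))
        = (1 + u) ^ 2 * (1 - 2 * u) + u ^ 2 * ((1 + u) * (x * y + x * z + y * z) - u * (x * y * z)) := by
      have hz' : z = 3 - x - y := by linarith
      rw [hz']
      ring
    have e5 : 0 ≤ (1 + u) * (x * y + x * z + y * z) - u * (x * y * z) := by
      have := mul_le_mul_of_nonneg_left e3 hu0.le
      nlinarith
    have e6 : K ^ 3 ≤ (1 + u) ^ 2 * (1 - 2 * u) := by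
      have hv0 : 0 ≤ u ^ 2 := sq_nonneg u
      have h7 : 0 ≤ ((197 / 400) ^ 2 - u ^ 2) * (588 / 25 - 2744 / 125 * (u ^ 2 + (197 / 400) ^ 2)) :=
        mul_nonneg (by linarith) (by norm_num at hu2 ⊢; linarith)
      have g : 0 ≤ 27 / 5 - 2 * u - 588 / 25 * u ^ 2 + 2744 / 125 * u ^ 4 := by
        nlinarith [h7]
      have e : (1 + u) ^ 2 * (1 - 2 * u) - K ^ 3 = u ^ 2 * (27 / 5 - 2 * u - 588 / 25 * u ^ 2 + 2744 / 125 * u ^ 4) := by
        rw [hK]
        ring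
      have := mul_nonneg (sq_nonneg u) g
      linarith
    rw [e4]
    have : 0 ≤ u ^ 2 * ((1 + u) * (x * y + x * z + y * z) - u * (x * y * z)) := mul_nonneg (sq_nonneg u) e5
    linarith
  unfold f3
  have e : ex 2 = 1 / 3 := by
    unfold ex
    norm_num
  rw [e, ← Real.mul_rpow b0 b1, ← Real.mul_rpow (mul_nonneg b0 b1) b2]
  have h5 := Real.rpow_le_rpow (by positivity) hprod (by norm_num : (0 : ℝ) ≤ 1 / 3)
  refine le_trans (le_of_eq ?_) h5
  rw [← Real.rpow_natCast K 3, ← Real.rpow_mul hK0]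
  norm_num

/-- The starting level. -/
theorem wC3_le {F : (Vc → ℝ) → ℝ} (hF : IsEx F) {u : ℝ} (hu0 : 0 < u) (hu1 : u ≤ 197 / 400) : wC u c3 F ≤ 14 / 5 := by
  have hu2 : 0 < u ^ 2 := by positivity
  have B3 := bddF c3_exp hu0.le (by linarith : u ≤ 1 / 2)
  have hm := hF.const_le B3 fun a ha => c3_chan_le hu0 hu1 ha
  unfold wC
  rw [div_le_iff₀ hu2]
  linarith

/-! ### The certificate -/

/-- The pointwise function of the limit theorem. -/
theorem PhiL_eq (u w : ℝ) (a : Vc) :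
    PhiL u (piT w) (qT w) (gP 0 11 (11 * w / 12) - 11 * w / 12 * qT w) (piF w) (qF w)
        (gP 0 10 (3 * w / 4) - 3 * w / 4 * qF w) (3 / 4) (213 / 4) (213 / 4 * gP 0 12 w)
        (piT w * qT w * (11 / 12) - piF w * qF w * (3 / 4) - lamN w) w a
      = PhiN u w (a 0) (a 1) (a 2) := by
  unfold PhiL PhiN Vale.Agent.Lib.P154Q.GG Vale.Agent.Lib.P154Q.gg aS ee1 ee2 ffN
  rw [fhat_c1, fhat_c2, fhat_c3, fhat_c1, fhat_c2, fhat_c3]
  change piT w * (1 - f2 (a 0) (a 1) (a 2) - qT w * ((1 - f2 (-u * a 0 + (1 - -u)) (-u * a 1 + (1 - -u)) (-u * a 2 + (1 - -u))) / u ^ 2) - _) - piF w * (1 - f1 (a 0) (a 1) (a 2)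
      - qF w * ((1 - f1 (-u * a 0 + (1 - -u)) (-u * a 1 + (1 - -u)) (-u * a 2 + (1 - -u))) / u ^ 2) - _
      + 1 / 2 * ((1 - f1 (-u * a 0 + (1 - -u)) (-u * a 1 + (1 - -u)) (-u * a 2 + (1 - -u))) / u ^ 2
        - 3 / 4 * ((1 - f3 (-u * a 0 + (1 - -u)) (-u * a 1 + (1 - -u)) (-u * a 2 + (1 - -u))) / u ^ 2)) ^ 2)
      + (213 / 4 * gP 0 12 w - 213 / 4 * (1 - f3 (a 0) (a 1) (a 2)))
      + _ * ((1 - f3 (-u * a 0 + (1 - -u)) (-u * a 1 + (1 - -u)) (-u * a 2 + (1 - -u))) / u ^ 2 - w) = _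
  simp only [ph1, ph2, ph3]
  ring

/-- The limit on the critical Poisson tree. -/
theorem poi_crit2 {u : ℝ} (h4 : 4 / 9 ≤ u) (h5 : u ≤ 197 / 400) :
    Tendsto (Xbar (poissonLaw (1 / u ^ 2)) (-u)) atTop (𝓝 0) := by
  have h0 : 0 < u := by linarith
  have h1 : u ≤ 1 / 2 := by linarith
  have hR := recP h0 h1
  have hl0 : -(1 / 2) ≤ -u := by linarith
  have hl1 : -u ≤ 1 := by linarith
  have hw := limit_lines (psi := fun x => 1 - Real.exp (-x)) (W := 14 / 5) hR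
    (fun y _ _ => by
      have e : -(1 / u ^ 2) * (1 - y) = -((1 - y) / u ^ 2) := by ring
      simp only [e]
      ring)
    (by fun_prop) ⟨0, wC3_le (hR.isEx 0) h0 h5⟩ ?_
  · have hX := sF_tendsto_of_wC3 hR.isEx h0 h1 hw
    have e : ∀ n, Xbar (poissonLaw (1 / u ^ 2)) (-u) n = (1 / 3) * Ex (poissonLaw (1 / u ^ 2)) (-u) n sF := by
      intro n
      rw [Ex_sF hl0 hl1]
      ring
    have h6 := hX.const_mul (1 / 3)
    rw [mul_zero] at h6
    exact h6.congr fun n => (e n).symm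
  · intro w hw0 hw1
    refine ⟨piT w, qT w, gP 0 11 (11 * w / 12) - 11 * w / 12 * qT w, piF w, qF w, gP 0 10 (3 * w / 4) - 3 * w / 4 * qF w,
      3 / 4, 213 / 4, 213 / 4 * gP 0 12 w, piT w * qT w * (11 / 12) - piF w * qF w * (3 / 4) - lamN w, w ^ 2 / 2000,
      piT_nonneg hw0.le hw1, piF_nonneg hw0.le hw1, by norm_num, by positivity, ?_, ?_, ?_, ?_⟩
    · intro y hy0 hy1
      have := psi_le_line hy0 hy1 (p := 11 * w / 12) (by positivity) (by linarith)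
      simp only [qT]
      linarith
    · intro y hy0 hy1
      have := line_le_psi hy0 hy1 (p := 3 * w / 4) (by positivity) (by linarith)
      have e : y - 3 / 4 * w = y - 3 * w / 4 := by ring
      simp only [qF]
      rw [e]
      linarith
    · have := gP12_le hw0.le
      linarith
    · intro a ha
      rw [PhiL_eq]
      exact point_all h4 h5 hw0.le hw1 (a 0) (a 1) (a 2) (ha.1 0) (ha.1 1) (ha.1 2) ha.2

end Vale.Agent.Lib.P154N
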