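import Vale.Agent.Lib.P154N.Main
import Vale.Agent.Lib.P154P.Final
import Vale.Agent.Lib.P154M.Main

/-!
Nonreconstruction on Poisson trees at and below the bound, for `-(197 / 400) ≤ lam < 0`.
-/

noncomputable section

namespace Vale.Agent.Lib.P154N

open Filter Topology
open Vale.Agent.Lib.P154 Vale.Agent.Lib.P154P

/-- The chi-square functional tends to zero on the critical Poisson tree. -/
theorem poi_xbar_all {μ : ℝ} (h0 : 0 < μ) (h1 : μ ≤ 197 / 400) :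
    Tendsto (Xbar (poissonLaw (1 / μ ^ 2)) (-μ)) atTop (𝓝 0) := by
  rcases le_total μ (4 / 9) with h | h
  · exact Vale.Agent.Lib.P154M.poi_xbar h0 h
  · exact poi_crit2 h h1

/-- The Poisson case, for `-(197 / 400) ≤ lam < 0`. -/
theorem poi_main2 (d lam : ℝ) (hd : 0 < d) (h0 : -(197 / 400) ≤ lam) (h1 : lam < 0) (hKS : d * lam ^ 2 ≤ 1) :
    (∀ n, Summable (fun T : GWTree n => gwWeight (poissonLaw d) n T * gwTreeAdvantage 3 lam n T))
      ∧ Tendsto (gwAdvantage (poissonLaw d) 3 lam) atTop (𝓝 0) := by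
  obtain ⟨μ, rfl⟩ : ∃ μ, lam = -μ := ⟨-lam, by ring⟩
  have hμ0 : 0 < μ := by linarith
  have hμ1 : μ ≤ 1 / 2 := by linarith
  have hμ2 : μ ≤ 197 / 400 := by linarith
  have hsq : (-μ) ^ 2 = μ ^ 2 := by ring
  rw [hsq] at hKS
  have hμ3 : 0 < μ ^ 2 := by positivity
  have hdd : d ≤ 1 / μ ^ 2 := by
    rw [le_div_iff₀ hμ3]
    exact hKS
  refine gw_neg_of_bound (poisson_wprob hd.le) (poi_xbar_all hμ0 hμ2) hμ0 hμ1 ?_ ?_
  · intro ν hν0 hν hν1 n
    exact Xbar_poisson_box hd.le hdd hν0.le hν hμ0 hμ1 n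
  · intro hm ν hν0 hν1 n
    exact Xbar_poisson_box hd.le hdd hν0.le (by rw [hm]; exact hν1.le) hμ0 hμ1 n

end Vale.Agent.Lib.P154N
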