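import Vale.Agent.Lib.P154N.LimitL
import Vale.Agent.Lib.P154N.Expr

set_option linter.defProp false

/-!
The side conditions for the certificate: the lines bounding the recursion function and the signs of the multipliers.
-/

noncomputable section

namespace Vale.Agent.Lib.P154N

open Vale.Agent.Lib.Common.Kron Vale.Agent.Lib.Common.Kron.PE Vale.Agent.Lib.P154M Vale.Agent.Lib.P154Q

/-- Side condition expressions. -/
def eHT : PE := eHH (c 0) (v 0) (v 1) 11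
/-- Side condition expressions. -/
def eHF : PE := PE.add (c 1814400) (neg (eHH (c 0) (v 0) (v 1) 10))
/-- Root cell for the side conditions. -/
def rootS2 : Cell := ⟨⟨0, 14, 5⟩, ⟨0, 14, 5⟩, ⟨0, 1, 1⟩, ⟨0, 1, 1⟩⟩
/-- Root cell for the side conditions. -/
def rootS1 : Cell := ⟨⟨0, 14, 5⟩, ⟨0, 1, 1⟩, ⟨0, 1, 1⟩, ⟨0, 1, 1⟩⟩

set_option maxRecDepth 100000 in
def checkHT : checkT eHT (c 1) [12, 12, 1, 1] .leaf rootS2 = true := by decide +kernel
set_option maxRecDepth 100000 in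
def checkHF : checkT eHF (c 1) [12, 12, 1, 1] .leaf rootS2 = true := by decide +kernel
set_option maxRecDepth 100000 in
def checkQT : checkT (eQT (v 0)) (c 1) [12, 1, 1, 1] .leaf rootS1 = true := by decide +kernel
set_option maxRecDepth 100000 in
def checkQF : checkT (eQF (v 0)) (c 1) [12, 1, 1, 1] .leaf rootS1 = true := by decide +kernel

theorem rootS2_nonneg {e : PE} {rad : List ℕ} {T : BT} (h : checkT e (c 1) rad T rootS2 = true) {x0 x1 : ℝ}
    (h0 : 0 ≤ x0) (h0' : x0 ≤ 14 / 5) (h1 : 0 ≤ x1) (h1' : x1 ≤ 14 / 5) : 0 ≤ evalR (xv x0 x1 0 0) e := by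
  refine tree_nonneg (by simp [rootS2, Cell.good]) (by simp [rootS2]) (by simp [rootS2]) (by simp [rootS2])
    (by simp [rootS2]) h ?_ ?_ ?_ ?_ (one_pos_eval _)
  · constructor
    · simpa [rootS2] using h0
    · simpa [rootS2] using h0'
  · constructor
    · simpa [rootS2] using h1
    · simpa [rootS2] using h1'
  · constructor <;> simp [rootS2]
  · constructor <;> simp [rootS2]

theorem rootS1_nonneg {e : PE} {rad : List ℕ} {T : BT} (h : checkT e (c 1) rad T rootS1 = true) {x0 : ℝ}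
    (h0 : 0 ≤ x0) (h0' : x0 ≤ 14 / 5) : 0 ≤ evalR (xv x0 0 0 0) e := by
  refine tree_nonneg (by simp [rootS1, Cell.good]) (by simp [rootS1]) (by simp [rootS1]) (by simp [rootS1])
    (by simp [rootS1]) h ?_ ?_ ?_ ?_ (one_pos_eval _)
  · constructor
    · simpa [rootS1] using h0
    · simpa [rootS1] using h0'
  · constructor <;> simp [rootS1]
  · constructor <;> simp [rootS1]
  · constructor <;> simp [rootS1]

section sides
variable {y p w : ℝ}

theorem hT_nonneg (hy0 : 0 ≤ y) (hy1 : y ≤ 14 / 5) (hp0 : 0 ≤ p) (hp1 : p ≤ 14 / 5) : 0 ≤ hH 0 y p 11 := by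
  have h := rootS2_nonneg checkHT hy0 hy1 hp0 hp1
  simp only [eHT, eval_eHH] at h
  have e : evalR (xv y p 0 0) (c 0) = 0 := by simp [evalR]
  have e1 : evalR (xv y p 0 0) (v 0) = y := rfl
  have e2 : evalR (xv y p 0 0) (v 1) = p := rfl
  rw [e, e1, e2] at h
  have hf : ((Nat.factorial 11 : ℕ) : ℝ) = 39916800 := by norm_num [Nat.factorial]
  rw [hf] at h
  linarith

theorem hF_le (hy0 : 0 ≤ y) (hy1 : y ≤ 14 / 5) (hp0 : 0 ≤ p) (hp1 : p ≤ 14 / 5) : hH 0 y p 10 ≤ 1 / 2 := by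
  have h := rootS2_nonneg checkHF hy0 hy1 hp0 hp1
  simp only [eHF, evalR, eval_eHH] at h
  have e1 : xv y p 0 0 0 = y := rfl
  have e2 : xv y p 0 0 1 = p := rfl
  have hf : ((Nat.factorial 10 : ℕ) : ℝ) = 3628800 := by norm_num [Nat.factorial]
  rw [e1, e2, hf] at h
  push_cast at h
  linarith

theorem qT_nonneg (hw0 : 0 ≤ w) (hw1 : w ≤ 14 / 5) : 0 ≤ qT w := by
  have h := rootS1_nonneg checkQT hw0 hw1
  rw [eval_eQT] at h
  have e1 : evalR (xv w 0 0 0) (v 0) = w := rfl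
  rw [e1] at h
  linarith

theorem qF_nonneg (hw0 : 0 ≤ w) (hw1 : w ≤ 14 / 5) : 0 ≤ qF w := by
  have h := rootS1_nonneg checkQF hw0 hw1
  rw [eval_eQF] at h
  have e1 : evalR (xv w 0 0 0) (v 0) = w := rfl
  rw [e1] at h
  linarith

theorem piT_nonneg (hw0 : 0 ≤ w) (hw1 : w ≤ 14 / 5) : 0 ≤ piT w := by
  unfold piT
  have h : 0 ≤ 14 - 5 * w := by linarith
  positivity

theorem piF_nonneg (hw0 : 0 ≤ w) (hw1 : w ≤ 14 / 5) : 0 ≤ piF w := by
  unfold piF
  have h : 0 ≤ 14 - 5 * w := by linarith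
  positivity

theorem lamN_nonneg (hw0 : 0 ≤ w) : 0 ≤ lamN w := by
  unfold lamN
  have h : 0 ≤ (w - 2) ^ 2 * (11 * w + 16) := by positivity
  nlinarith

/-- The upper line. -/
theorem psi_le_line (hy0 : 0 ≤ y) (hy1 : y ≤ 14 / 5) (hp0 : 0 ≤ p) (hp1 : p ≤ 14 / 5) :
    1 - Real.exp (-y) ≤ gP 0 11 p - p * dP 0 11 p + dP 0 11 p * y := by
  have h1 := exp_trunc_gen 11 hy0
  have h2 := gP_second 0 y p 11
  have h3 : 0 ≤ (y - p) ^ 2 * hH 0 y p 11 := mul_nonneg (sq_nonneg _) (hT_nonneg hy0 hy1 hp0 hp1)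
  norm_num at h1
  nlinarith

/-- The lower curve. -/
theorem line_le_psi (hy0 : 0 ≤ y) (hy1 : y ≤ 14 / 5) (hp0 : 0 ≤ p) (hp1 : p ≤ 14 / 5) :
    gP 0 10 p - p * dP 0 10 p + dP 0 10 p * y - 1 / 2 * (y - p) ^ 2 ≤ 1 - Real.exp (-y) := by
  have h1 := exp_trunc_gen 10 hy0
  have h2 := gP_second 0 y p 10
  have h3 : (y - p) ^ 2 * hH 0 y p 10 ≤ (y - p) ^ 2 * (1 / 2) :=
    mul_le_mul_of_nonneg_left (hF_le hy0 hy1 hp0 hp1) (sq_nonneg _)
  norm_num at h1
  nlinarith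

/-- The lower truncation for the star. -/
theorem gP12_le (hw0 : 0 ≤ w) : gP 0 12 w ≤ 1 - Real.exp (-w) := by
  have h1 := exp_trunc_gen 12 hw0
  norm_num at h1
  linarith

end sides

end Vale.Agent.Lib.P154N
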