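import Vale.Agent.Lib.P154N.Fits
import Vale.Agent.Lib.P154N.CheckF
import Vale.Agent.Lib.P154N.Side

/-!
The pointwise inequality on the simplex.
-/

noncomputable section

namespace Vale.Agent.Lib.P154N

open Vale.Agent.Lib.Common.Kron Vale.Agent.Lib.Common.Kron.PE Vale.Agent.Lib.P154M

/-! ### The function -/

/-- The pointwise function. -/
def PhiN (u w a0 a1 a2 : ℝ) : ℝ :=
  aS w a0 a1 a2
    - piT w * qT w * (ee2 (-u * a0 + (1 - -u)) (-u * a1 + (1 - -u)) (-u * a2 + (1 - -u)) / u ^ 2)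
    + piF w * qF w * (ee1 (-u * a0 + (1 - -u)) (-u * a1 + (1 - -u)) (-u * a2 + (1 - -u)) / u ^ 2)
    - lamN w * (ph3 (-u * a0 + (1 - -u)) (-u * a1 + (1 - -u)) (-u * a2 + (1 - -u)) / u ^ 2 - w)
    - piF w / 2 * (ee1 (-u * a0 + (1 - -u)) (-u * a1 + (1 - -u)) (-u * a2 + (1 - -u)) / u ^ 2) ^ 2
    - ffN w

theorem aS_swap12 (w a b c : ℝ) : aS w b a c = aS w a b c := by
  simp only [aS, ph1, ph2, ph3, f1_swap12 a b c, f2_swap12 a b c, f3_swap12 a b c]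

theorem aS_swap23 (w a b c : ℝ) : aS w a c b = aS w a b c := by
  simp only [aS, ph1, ph2, ph3, f1_swap23 a b c, f2_swap23 a b c, f3_swap23 a b c]

theorem ee2_swap12 (a b c : ℝ) : ee2 b a c = ee2 a b c := by
  simp only [ee2, ph2, ph3, f2_swap12 a b c, f3_swap12 a b c]

theorem ee2_swap23 (a b c : ℝ) : ee2 a c b = ee2 a b c := by
  simp only [ee2, ph2, ph3, f2_swap23 a b c, f3_swap23 a b c]

theorem PhiN_swap12 (u w a b c : ℝ) : PhiN u w b a c = PhiN u w a b c := by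
  unfold PhiN
  rw [aS_swap12, ee2_swap12, ee1_swap12, ph3_swap12]

theorem PhiN_swap23 (u w a b c : ℝ) : PhiN u w a c b = PhiN u w a b c := by
  unfold PhiN
  rw [aS_swap23, ee2_swap23, ee1_swap23, ph3_swap23]

theorem rev3 (f : ℝ → ℝ → ℝ → ℝ) (h12 : ∀ a b c, f b a c = f a b c) (h23 : ∀ a b c, f a c b = f a b c)
    (a b c : ℝ) : f c b a = f a b c := by
  rw [h12 b c a, h23 b a c, h12 a b c]

/-- Parametrisation of a sorted triple. -/
theorem rt_sorted {a b c : ℝ} (hab : a ≤ b) (hbc : b ≤ c) (ha : 0 ≤ a) (hs : a + b + c = 3) :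
    ∃ r t : ℝ, 0 ≤ r ∧ r ≤ 1 ∧ 1 / 2 ≤ t ∧ t ≤ 2 ∧ r = 1 - a ∧ r * t = c - 1 ∧ 3 * sS a b c = s3R r t
      ∧ yS a b c = yyR r t := by
  have hb' : b = 3 - a - c := by linarith
  by_cases hr : a = 1
  · have hb1 : b = 1 := by linarith
    have hc1 : c = 1 := by linarith
    refine ⟨0, 1, le_rfl, zero_le_one, by norm_num, by norm_num, by linarith, by linarith, ?_, ?_⟩
    · simp [sS, s3R, hr, hb1, hc1]
    · simp [yS, yyR, hr, hb1, hc1]
  · have ha1 : a ≤ 1 := by linarith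
    have hr0 : 0 < 1 - a := lt_of_le_of_ne (by linarith) (fun h => hr (by linarith))
    refine ⟨1 - a, (c - 1) / (1 - a), hr0.le, by linarith, ?_, ?_, rfl, ?_, ?_, ?_⟩
    · rw [le_div_iff₀ hr0]
      linarith
    · rw [div_le_iff₀ hr0]
      linarith
    · field_simp
    · unfold sS s3R
      rw [hb']
      field_simp
      ring
    · unfold yS yyR
      rw [hb']
      field_simp
      ring

/-! ### Away from the vertices: the final polynomial -/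

/-- A cell with the properties needed for the tree checks. -/
structure Ok4 (C : Cell) : Prop where
  good : C.good
  l0 : C.i0.lo < C.i0.hi
  l1 : C.i1.lo < C.i1.hi
  l2 : C.i2.lo < C.i2.hi
  l3 : C.i3.lo < C.i3.hi

theorem tree_ok {C : Cell} (hC : Ok4 C) {e r : PE} {rad : List ℕ} (h : ∃ T, checkT e r rad T C = true) {x0 x1 x2 x3 : ℝ}
    (h0 : C.i0.cmem x0) (h1 : C.i1.cmem x1) (h2 : C.i2.cmem x2) (h3 : C.i3.cmem x3)
    (hr : 0 < evalR (xv x0 x1 x2 x3) r) : 0 ≤ evalR (xv x0 x1 x2 x3) e := by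
  obtain ⟨T, hT⟩ := h
  exact tree_nonneg hC.good hC.l0 hC.l1 hC.l2 hC.l3 hT h0 h1 h2 h3 hr

theorem dB_pos : (0 : ℝ) < dB := by
  norm_num [dB]

theorem ok_rootA1 : Ok4 rootA1 := ⟨⟨by simp [rootA1], by simp [rootA1, iT], by simp [rootA1], by simp [rootA1, iU]⟩,
  by simp [rootA1], by simp [rootA1, iT], by simp [rootA1], by simp [rootA1, iU]⟩
theorem ok_rootA2 : Ok4 rootA2 := ⟨⟨by simp [rootA2], by simp [rootA2, iT], by simp [rootA2], by simp [rootA2, iU]⟩,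
  by simp [rootA2], by simp [rootA2, iT], by simp [rootA2], by simp [rootA2, iU]⟩
theorem ok_rootB1 : Ok4 rootB1 := ⟨⟨by simp [rootB1], by simp [rootB1, iT], by simp [rootB1], by simp [rootB1, iU]⟩,
  by simp [rootB1], by simp [rootB1, iT], by simp [rootB1], by simp [rootB1, iU]⟩
theorem ok_rootB2 : Ok4 rootB2 := ⟨⟨by simp [rootB2], by simp [rootB2, iT], by simp [rootB2], by simp [rootB2, iU]⟩,
  by simp [rootB2], by simp [rootB2, iT], by simp [rootB2], by simp [rootB2, iU]⟩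
theorem ok_rootK2 : Ok4 rootK2 := ⟨⟨by simp [rootK2], by simp [rootK2, iT], by simp [rootK2], by simp [rootK2, iU]⟩,
  by simp [rootK2], by simp [rootK2, iT], by simp [rootK2], by simp [rootK2, iU]⟩
theorem ok_rootK3 : Ok4 rootK3 := ⟨⟨by simp [rootK3], by simp [rootK3, iT], by simp [rootK3], by simp [rootK3, iU]⟩,
  by simp [rootK3], by simp [rootK3, iT], by simp [rootK3], by simp [rootK3, iU]⟩
theorem ok_rootK4 : Ok4 rootK4 := ⟨⟨by simp [rootK4], by simp [rootK4, iT], by simp [rootK4], by simp [rootK4, iU]⟩,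
  by simp [rootK4], by simp [rootK4, iT], by simp [rootK4], by simp [rootK4, iU]⟩

theorem regB_pos {r t w u : ℝ} (h : u * (r * t) < 21 / 25) : 0 < evalR (xv r t w u) regB := by
  simp only [regB, evalR]
  change 0 < ((21 : ℕ) : ℝ) + -(((25 : ℕ) : ℝ) * (u * (r * t)))
  push_cast
  linarith

theorem one_pos_c (x : ℕ → ℝ) : 0 < evalR x (c 1) := by
  simp [evalR]

section charts
variable {r t w u : ℝ}

theorem eval_ChA (La Lb Lc : L2) (r t w u : ℝ) :
    evalR (xv r t w u) (eChA La Lb Lc) = dB * mB La Lb Lc u w (s3R r t) (yyR r t) :=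
  eval_eBulk _ _ _ _ _ _ _ _

theorem eval_ChB1 (La Lb Lc : L2) (r t τ u : ℝ) :
    evalR (xv r t τ u) (eChB1 La Lb Lc) = dB * mB La Lb Lc u (r ^ 2 * τ) (s3R r t) (yyR r t) :=
  eval_eBulk _ _ _ _ _ _ _ _

theorem eval_ChB2 (La Lb Lc : L2) (ν t σ u : ℝ) :
    evalR (xv ν t σ u) (eChB2 La Lb Lc) = dB * mB La Lb Lc u (ν ^ 2) (s3R (ν * σ) t) (yyR (ν * σ) t) :=
  eval_eBulk _ _ _ _ _ _ _ _

theorem cmem_T (ht0 : 1 / 2 ≤ t) (ht1 : t ≤ 2) : iT.cmem t := by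
  constructor
  · norm_num [iT]
    linarith
  · norm_num [iT]
    linarith

theorem cmem_U (hu0 : 4 / 9 ≤ u) (hu1 : u ≤ 197 / 400) : iU.cmem u := by
  constructor
  · norm_num [iU]
    linarith
  · norm_num [iU]
    linarith

variable (hr0 : 0 ≤ r) (hr1 : r ≤ 1) (ht0 : 1 / 2 ≤ t) (ht1 : t ≤ 2) (hw0 : 0 ≤ w) (hw1 : w ≤ 14 / 5) (hu0 : 4 / 9 ≤ u)
  (hu1 : u ≤ 197 / 400) (hreg : u * (r * t) < 21 / 25)
include hr0 hr1 ht0 ht1 hw0 hw1 hu0 hu1 hreg

/-- The first piece, with all charts. -/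
theorem mB_piece1 (hr : r ≤ 19 / 20) : 0 ≤ mB Lk1v0 Lk1v1 Lk1v2 u w (s3R r t) (yyR r t) := by
  have htc := cmem_T ht0 ht1
  have huc := cmem_U hu0 hu1
  rcases le_total (1 / 4) r with h1 | h1
  · have e := tree_ok ok_rootA1 hFA1 (x0 := r) (x1 := t) (x2 := w) (x3 := u)
      (cmem_of (a := 1 / 4) (b := 19 / 20) (by norm_num [rootA1]) (by norm_num [rootA1]) h1 hr) htc
      (cmem_of (a := 0) (b := 14 / 5) (by norm_num [rootA1]) (by norm_num [rootA1]) hw0 hw1) huc (regB_pos hreg)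
    rw [eval_ChA] at e
    exact nonneg_of_mul_nonneg_right e dB_pos
  · rcases le_total (1 / 16) w with h2 | h2
    · have e := tree_ok ok_rootA2 hFA2 (x0 := r) (x1 := t) (x2 := w) (x3 := u)
        (cmem_of (a := 0) (b := 1 / 4) (by norm_num [rootA2]) (by norm_num [rootA2]) hr0 h1) htc
        (cmem_of (a := 1 / 16) (b := 14 / 5) (by norm_num [rootA2]) (by norm_num [rootA2]) h2 hw1) huc (one_pos_c _)
      rw [eval_ChA] at e
      exact nonneg_of_mul_nonneg_right e dB_pos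
    · rcases le_total w (r ^ 2 / 16) with h3 | h3
      · obtain ⟨τ, hτ0, hτ1, hτ⟩ : ∃ τ : ℝ, 0 ≤ τ ∧ τ ≤ 1 / 16 ∧ r ^ 2 * τ = w := by
          rcases eq_or_lt_of_le hr0 with h | h
          · refine ⟨0, le_rfl, by norm_num, ?_⟩
            rw [← h] at h3
            have : w = 0 := le_antisymm (by simpa using h3) hw0
            rw [this]
            ring
          · have hr2 : 0 < r ^ 2 := by positivity
            refine ⟨w / r ^ 2, div_nonneg hw0 hr2.le, ?_, by field_simp⟩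
            rw [div_le_iff₀ hr2]
            linarith
        have e := tree_ok ok_rootB1 hFB1 (x0 := r) (x1 := t) (x2 := τ) (x3 := u)
          (cmem_of (a := 0) (b := 1 / 4) (by norm_num [rootB1]) (by norm_num [rootB1]) hr0 h1) htc
          (cmem_of (a := 0) (b := 1 / 16) (by norm_num [rootB1]) (by norm_num [rootB1]) hτ0 hτ1) huc (one_pos_c _)
        rw [eval_ChB1, hτ] at e
        exact nonneg_of_mul_nonneg_right e dB_pos
      · by_cases hw : w = 0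
        · have hr' : r = 0 := by
            have : r ^ 2 ≤ 0 := by
              rw [hw] at h3
              linarith
            have h5 : r ^ 2 = 0 := le_antisymm this (sq_nonneg r)
            exact pow_eq_zero_iff (by norm_num) |>.1 h5
          have e := tree_ok ok_rootB2 hFB2 (x0 := 0) (x1 := t) (x2 := 0) (x3 := u)
            (cmem_of (a := 0) (b := 1 / 4) (by norm_num [rootB2]) (by norm_num [rootB2]) le_rfl (by norm_num)) htc
            (cmem_of (a := 0) (b := 4) (by norm_num [rootB2]) (by norm_num [rootB2]) le_rfl (by norm_num)) huc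
            (one_pos_c _)
          rw [eval_ChB2] at e
          have e2 := nonneg_of_mul_nonneg_right e dB_pos
          rw [hw, hr']
          simpa using e2
        · have hw' : 0 < w := lt_of_le_of_ne hw0 (Ne.symm hw)
          set ν := Real.sqrt w with hν
          have hν0 : 0 < ν := Real.sqrt_pos.2 hw'
          have hν2 : ν ^ 2 = w := Real.sq_sqrt hw0
          have hν1 : ν ≤ 1 / 4 := by
            rw [hν]
            apply Real.sqrt_le_iff.2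
            constructor
            · norm_num
            · norm_num
              linarith
          set σ := r / ν with hσ
          have hσ0 : 0 ≤ σ := div_nonneg hr0 hν0.le
          have hσν : ν * σ = r := by
            rw [hσ]
            field_simp
          have hσ1 : σ ≤ 4 := by
            rw [hσ, div_le_iff₀ hν0]
            have : r ^ 2 ≤ (4 * ν) ^ 2 := by
              rw [mul_pow, hν2]
              linarith
            exact abs_le_of_sq_le_sq' this (by positivity) |>.2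
          have e := tree_ok ok_rootB2 hFB2 (x0 := ν) (x1 := t) (x2 := σ) (x3 := u)
            (cmem_of (a := 0) (b := 1 / 4) (by norm_num [rootB2]) (by norm_num [rootB2]) hν0.le hν1) htc
            (cmem_of (a := 0) (b := 4) (by norm_num [rootB2]) (by norm_num [rootB2]) hσ0 hσ1) huc (one_pos_c _)
          rw [eval_ChB2, hσν, hν2] at e
          exact nonneg_of_mul_nonneg_right e dB_pos

theorem mB_piece2 (hr : 19 / 20 ≤ r) (hr' : r ≤ 49 / 50) : 0 ≤ mB Lk2v0 Lk2v1 Lk2v2 u w (s3R r t) (yyR r t) := by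
  have e := tree_ok ok_rootK2 hFK2 (x0 := r) (x1 := t) (x2 := w) (x3 := u)
    (cmem_of (a := 19 / 20) (b := 49 / 50) (by norm_num [rootK2]) (by norm_num [rootK2]) hr hr') (cmem_T ht0 ht1)
    (cmem_of (a := 0) (b := 14 / 5) (by norm_num [rootK2]) (by norm_num [rootK2]) hw0 hw1) (cmem_U hu0 hu1) (regB_pos hreg)
  rw [eval_ChA] at e
  exact nonneg_of_mul_nonneg_right e dB_pos

theorem mB_piece3 (hr : 49 / 50 ≤ r) (hr' : r ≤ 199 / 200) : 0 ≤ mB Lk3v0 Lk3v1 Lk3v2 u w (s3R r t) (yyR r t) := by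
  have e := tree_ok ok_rootK3 hFK3 (x0 := r) (x1 := t) (x2 := w) (x3 := u)
    (cmem_of (a := 49 / 50) (b := 199 / 200) (by norm_num [rootK3]) (by norm_num [rootK3]) hr hr') (cmem_T ht0 ht1)
    (cmem_of (a := 0) (b := 14 / 5) (by norm_num [rootK3]) (by norm_num [rootK3]) hw0 hw1) (cmem_U hu0 hu1) (regB_pos hreg)
  rw [eval_ChA] at e
  exact nonneg_of_mul_nonneg_right e dB_pos

theorem mB_piece4 (hr : 199 / 200 ≤ r) : 0 ≤ mB Lk4v0 Lk4v1 Lk4v2 u w (s3R r t) (yyR r t) := by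
  have e := tree_ok ok_rootK4 hFK4 (x0 := r) (x1 := t) (x2 := w) (x3 := u)
    (cmem_of (a := 199 / 200) (b := 1) (by norm_num [rootK4]) (by norm_num [rootK4]) hr hr1) (cmem_T ht0 ht1)
    (cmem_of (a := 0) (b := 14 / 5) (by norm_num [rootK4]) (by norm_num [rootK4]) hw0 hw1) (cmem_U hu0 hu1) (regB_pos hreg)
  rw [eval_ChA] at e
  exact nonneg_of_mul_nonneg_right e dB_pos

end charts

/-! ### Away from the vertices: the combination -/

/-- Upper bound for a scaled defect. -/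
theorem scaled_leD {P : L2} (hP : wtGe2 P = true) {D f s y u : ℝ} (hD : 0 < D) (hu0 : 0 < u)
    (h : D * f ≤ ev2 P (3 * (u ^ 2 * s)) (-(u ^ 3 * y))) :
    f / u ^ 2 ≤ ev2u P u (3 * s) y / D := by
  have e := ev2u_mul u (3 * s) y P hP
  have e2 : u ^ 2 * (3 * s) = 3 * (u ^ 2 * s) := by ring
  rw [e2] at e
  rw [← e] at h
  have hu2 : 0 < u ^ 2 := by positivity
  rw [div_le_div_iff₀ hu2 hD]
  nlinarith

section bulk
variable {u w a0 a1 a2 : ℝ}

/-- The pointwise function bounds the final polynomial. -/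
theorem PhiN_of_mB {La Lb Lc : L2} (hu0 : 0 < u) (hu1 : u ≤ 197 / 400) (hw0 : 0 ≤ w) (hw1 : w ≤ 14 / 5)
    (h01 : a0 ≤ a1) (h12 : a1 ≤ a2) (h0 : 0 ≤ a0) (hs : a0 + a1 + a2 = 3) (hβ : 4 / 25 < 1 + u - u * a2)
    (hA : ((14 - 5 * w) ^ 2 * ev2 La (3 * sS a0 a1 a2) (yS a0 a1 a2)
      + 10 * (w * (14 - 5 * w)) * ev2 Lb (3 * sS a0 a1 a2) (yS a0 a1 a2)
      + 25 * w ^ 2 * ev2 Lc (3 * sS a0 a1 a2) (yS a0 a1 a2)) / (196 * Da) ≤ aS w a0 a1 a2)
    (hm : 0 ≤ mB La Lb Lc u w (3 * sS a0 a1 a2) (yS a0 a1 a2)) :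
    w ^ 2 / 2000 ≤ PhiN u w a0 a1 a2 := by
  have hu2 : 0 < u ^ 2 := by positivity
  set b0 := -u * a0 + (1 - -u) with hb0
  set b1 := -u * a1 + (1 - -u) with hb1
  set b2 := -u * a2 + (1 - -u) with hb2
  have k1 : b2 ≤ b1 := by
    rw [hb1, hb2]
    nlinarith
  have k2 : b1 ≤ b0 := by
    rw [hb0, hb1]
    nlinarith
  have k3 : b2 + b1 + b0 = 3 := by
    rw [hb0, hb1, hb2]
    linear_combination (-u) * hs
  have k4 : 4 / 25 ≤ b2 := by
    rw [hb2]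
    linarith
  have k5 : b0 < 3 / 2 := by
    rw [hb0]
    nlinarith
  have k6 : 0 ≤ b2 := by linarith
  have hS : sS b0 b1 b2 = u ^ 2 * sS a0 a1 a2 := sS_scale u a0 a1 a2
  have hY : yS b0 b1 b2 = -(u ^ 3 * yS a0 a1 a2) := yS_scale u a0 a1 a2
  have rS : sS b2 b1 b0 = u ^ 2 * sS a0 a1 a2 := by
    rw [rev3 sS sS_swap12 sS_swap23, hS]
  have rY : yS b2 b1 b0 = -(u ^ 3 * yS a0 a1 a2) := by
    rw [rev3 yS yS_swap12 yS_swap23, hY]
  have f2 := fit_ee2 k6 k1 k2 k3 k4 k5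
  have f1 := fit_ee1 k6 k1 k2 k3 k4 k5
  have f3 := fit_ph3 k6 k1 k2 k3 k4 k5
  have fq := fit_sq k6 k1 k2 k3 k4 k5
  rw [rS, rY, rev3 ee2 ee2_swap12 ee2_swap23] at f2
  rw [rS, rY, rev3 ee1 ee1_swap12 ee1_swap23] at f1
  rw [rS, rY, rev3 ph3 ph3_swap12 ph3_swap23] at f3
  rw [rS, rev3 ee1 ee1_swap12 ee1_swap23] at fq
  have hD : (0 : ℝ) < Du := by norm_num [Du]
  have c2 := scaled_leD (P := Ue2) (by decide) hD hu0 f2
  have c1 := scaled_leD (P := Ue1) (by decide) hD hu0 f1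
  have c3 := scaled_leD (P := U3) (by decide) hD hu0 f3
  have hT := mul_nonneg (piT_nonneg hw0 hw1) (qT_nonneg hw0 hw1)
  have hF := mul_nonneg (piF_nonneg hw0 hw1) (qF_nonneg hw0 hw1)
  have hL := lamN_nonneg hw0
  have hpF := piF_nonneg hw0 hw1
  have m2 := mul_le_mul_of_nonneg_left c2 hT
  have m1 := mul_le_mul_of_nonneg_left c1 hF
  have m3 := mul_le_mul_of_nonneg_left (sub_le_sub_right c3 w) hL
  have hQ : (ee1 b0 b1 b2 / u ^ 2) ^ 2 ≤ 37 / 100000 * u ^ 2 * ((3 * sS a0 a1 a2) ^ 3 / 27) := by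
    rw [div_pow, div_le_iff₀ (by positivity)]
    have e : 37 / 100000 * u ^ 2 * ((3 * sS a0 a1 a2) ^ 3 / 27) * (u ^ 2) ^ 2
        = 37 / 100000 * (u ^ 2 * sS a0 a1 a2) ^ 3 := by
      ring
    rw [e]
    exact fq
  have m4 := mul_le_mul_of_nonneg_left hQ (by positivity : 0 ≤ piF w / 2)
  have e1 : -ee1 b0 b1 b2 / u ^ 2 = -(ee1 b0 b1 b2 / u ^ 2) := by ring
  rw [e1] at m1
  unfold mB at hm
  unfold PhiN
  rw [← hb0, ← hb1, ← hb2]
  nlinarith

end bulk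

/-! ### Near the vertices -/

section nv
variable {u w a0 a1 a2 : ℝ}

theorem dN_pos : (0 : ℝ) < dN := by
  norm_num [dN]

/-- The final polynomial near the vertices, from the kernel check. -/
theorem nV_of_check {Q2 Q1 Q3 : L2} {kn n1 n2 : ℕ} {rad : List ℕ} {R : Cell} (hR : Ok4 R)
    (hN : ∃ T, checkT (eNV Q2 Q1 Q3 kn) (regNV n1 10000 n2 10000) rad T R = true) (d2 : degLe 3 Q2 = true)
    (d1 : degLe 3 Q1 = true) (d3 : degLe 3 Q3 = true)
    (hR0 : R.i0 = ⟨0, 1, 1⟩) (hR1 : R.i1 = ⟨0, 7, 10⟩) (hR2 : R.i2 = ⟨0, 14, 5⟩) (hRu : R.i3.cmem u)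
    (hu1 : u ≤ 197 / 400) (hu : 0 < u) (hw0 : 0 ≤ w) (hw1 : w ≤ 14 / 5)
    (h01 : a0 ≤ a1) (h12 : a1 ≤ a2) (h0 : 0 ≤ a0) (hs : a0 + a1 + a2 = 3) (hβ4 : 1 + u - u * a2 ≤ 4 / 25)
    (hn1 : (n1 : ℝ) < 10000 * (1 + u - u * a2)) (hn2 : 10000 * (1 + u - u * a2) < (n2 : ℝ)) :
    0 ≤ nV Q2 Q1 Q3 kn u w a0 a1 a2 := by
  obtain ⟨p, q, hp0, hp1, hq0, hq1, ea, eb, ec⟩ := chart_s h0 h01 h12 hs
  have ha2 : 27 / 10 ≤ a2 := by
    have h1 : 21 / 25 ≤ u * (a2 - 1) := by linarith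
    by_contra hc
    push Not at hc
    have h2 : u * (a2 - 1) ≤ u * (17 / 10) := mul_le_mul_of_nonneg_left (by linarith) hu.le
    have h3 : u * (17 / 10) ≤ 197 / 400 * (17 / 10) := mul_le_mul_of_nonneg_right hu1 (by norm_num)
    norm_num at h3
    linarith
  have ha1 : a1 ≤ 3 / 10 := by linarith
  have hq7 : q ≤ 7 / 10 := by
    have e1 : a1 = a2 * q ^ 6 := by
      rw [eb, ec, cB_eq]
    have hq6 : 0 ≤ q ^ 6 := by positivity
    have h2 : 27 / 10 * q ^ 6 ≤ a2 * q ^ 6 := mul_le_mul_of_nonneg_right ha2 hq6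
    refine pow6_le hq0 (by norm_num) ?_
    norm_num
    linarith
  have mp : R.i0.cmem p := by
    rw [hR0]
    exact cmem_of (a := 0) (b := 1) (by norm_num) (by norm_num) hp0 hp1
  have mq : R.i1.cmem q := by
    rw [hR1]
    exact cmem_of (a := 0) (b := 7 / 10) (by norm_num) (by norm_num) hq0 hq7
  have mw : R.i2.cmem w := by
    rw [hR2]
    exact cmem_of (a := 0) (b := 14 / 5) (by norm_num) (by norm_num) hw0 hw1
  have hreg : 0 < evalR (xv p q w u) (regNV n1 10000 n2 10000) := by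
    rw [eval_regNV]
    change 0 < chM p q ^ 2 * ((((10000 : ℕ) : ℝ) * (1 + u - u * cC p q) - n1)
      * ((n2 : ℝ) - ((10000 : ℕ) : ℝ) * (1 + u - u * cC p q)))
    rw [← ec]
    have hM := chM_pos p q
    push_cast
    refine mul_pos (by positivity) (mul_pos ?_ ?_)
    · linarith
    · linarith
  have e0 := tree_ok hR hN mp mq mw hRu hreg
  rw [eval_eNV (xv p q w u) hp0 hq0 kn d2 d1 d3] at e0
  change 0 ≤ dN * chM p q ^ 3 * nV Q2 Q1 Q3 kn u w (cA p q) (cB p q) (cC p q) at e0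
  rw [← ea, ← eb, ← ec] at e0
  have hM3 : 0 < dN * chM p q ^ 3 := mul_pos dN_pos (pow_pos (chM_pos p q) 3)
  exact nonneg_of_mul_nonneg_right e0 hM3

/-- The algebra of the case near the vertices. -/
theorem PhiN_alg {Q2v Q1v Q3v : ℝ} {kn : ℕ} (hu2 : 0 < u ^ 2) (hT : 0 ≤ piT w * qT w) (hF : 0 ≤ piF w * qF w)
    (hL : 0 ≤ lamN w) (hpF : 0 ≤ piF w)
    (hnv : 0 ≤ u ^ 2 * aS w a0 a1 a2 - piT w * qT w * Q2v - piF w * qF w * Q1v - lamN w * (Q3v - u ^ 2 * w)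
      - u ^ 2 * (piF w / 2 * ((kn : ℝ) / 10000000) + ffN w + w ^ 2 / 2000))
    (g2 : ee2 (-u * a0 + (1 - -u)) (-u * a1 + (1 - -u)) (-u * a2 + (1 - -u)) ≤ Q2v)
    (g1 : -ee1 (-u * a0 + (1 - -u)) (-u * a1 + (1 - -u)) (-u * a2 + (1 - -u)) ≤ Q1v)
    (g3 : ph3 (-u * a0 + (1 - -u)) (-u * a1 + (1 - -u)) (-u * a2 + (1 - -u)) ≤ Q3v)
    (hQ : (ee1 (-u * a0 + (1 - -u)) (-u * a1 + (1 - -u)) (-u * a2 + (1 - -u)) / u ^ 2) ^ 2 ≤ (kn : ℝ) / 10000000) :
    w ^ 2 / 2000 ≤ PhiN u w a0 a1 a2 := by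
  unfold PhiN
  set E2 := ee2 (-u * a0 + (1 - -u)) (-u * a1 + (1 - -u)) (-u * a2 + (1 - -u))
  set E1 := ee1 (-u * a0 + (1 - -u)) (-u * a1 + (1 - -u)) (-u * a2 + (1 - -u))
  set P3 := ph3 (-u * a0 + (1 - -u)) (-u * a1 + (1 - -u)) (-u * a2 + (1 - -u))
  set k := (kn : ℝ) / 10000000
  have t1 := mul_nonneg hT (sub_nonneg.2 g2)
  have t2 := mul_nonneg hF (sub_nonneg.2 g1)
  have t3 := mul_nonneg hL (sub_nonneg.2 g3)
  have t4 := mul_nonneg (mul_nonneg hu2.le (by positivity : 0 ≤ piF w / 2)) (sub_nonneg.2 hQ)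
  have key : u ^ 2 * (aS w a0 a1 a2 - piT w * qT w * (E2 / u ^ 2) + piF w * qF w * (E1 / u ^ 2)
        - lamN w * (P3 / u ^ 2 - w) - piF w / 2 * (E1 / u ^ 2) ^ 2 - ffN w - w ^ 2 / 2000)
      = (u ^ 2 * aS w a0 a1 a2 - piT w * qT w * Q2v - piF w * qF w * Q1v - lamN w * (Q3v - u ^ 2 * w)
          - u ^ 2 * (piF w / 2 * k + ffN w + w ^ 2 / 2000))
        + piT w * qT w * (Q2v - E2) + piF w * qF w * (Q1v - -E1) + lamN w * (Q3v - P3)
        + u ^ 2 * (piF w / 2) * (k - (E1 / u ^ 2) ^ 2) := by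
    have hne : u ^ 2 ≠ 0 := hu2.ne'
    have e2 : u ^ 2 * (E2 / u ^ 2) = E2 := by
      rw [← mul_div_assoc]
      exact mul_div_cancel_left₀ _ hne
    have e1 : u ^ 2 * (E1 / u ^ 2) = E1 := by
      rw [← mul_div_assoc]
      exact mul_div_cancel_left₀ _ hne
    have e3 : u ^ 2 * (P3 / u ^ 2) = P3 := by
      rw [← mul_div_assoc]
      exact mul_div_cancel_left₀ _ hne
    linear_combination (-(piT w * qT w)) * e2 + (piF w * qF w) * e1 + (-(lamN w)) * e3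
  have h5 : 0 ≤ u ^ 2 * (aS w a0 a1 a2 - piT w * qT w * (E2 / u ^ 2) + piF w * qF w * (E1 / u ^ 2)
        - lamN w * (P3 / u ^ 2 - w) - piF w / 2 * (E1 / u ^ 2) ^ 2 - ffN w - w ^ 2 / 2000) := by
    rw [key]
    linarith
  have h6 := nonneg_of_mul_nonneg_right h5 hu2
  linarith

/-- The pointwise function from the final polynomial, on one block. -/
theorem PhiN_of_nV {Q2 Q1 Q3 E1 : L2} {C : Cell} {β1 β2 : ℝ} (hB : BlockFit Q2 Q1 Q3 E1 C β1 β2) {kn n1 n2 : ℕ}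
    {rad : List ℕ} {R : Cell} (hR : Ok4 R) (hN : ∃ T, checkT (eNV Q2 Q1 Q3 kn) (regNV n1 10000 n2 10000) rad T R = true)
    (hR0 : R.i0 = ⟨0, 1, 1⟩) (hR1 : R.i1 = ⟨0, 7, 10⟩) (hR2 : R.i2 = ⟨0, 14, 5⟩) (hRu : R.i3.cmem u)
    (hu0 : 4 / 9 ≤ u) (hu1 : u ≤ 197 / 400) (hw0 : 0 ≤ w) (hw1 : w ≤ 14 / 5)
    (h01 : a0 ≤ a1) (h12 : a1 ≤ a2) (h0 : 0 ≤ a0) (hs : a0 + a1 + a2 = 3)
    (hβ4 : β2 ≤ 4 / 25) (hβ1 : β1 ≤ 1 + u - u * a2) (hβ2 : 1 + u - u * a2 ≤ β2)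
    (hn1 : (n1 : ℝ) < 10000 * β1) (hn2 : 10000 * β2 < (n2 : ℝ))
    {ε : ℝ} (hε : ev2 E1 (1 + u - u * a2) 1 ≤ Dq * ε) (hκ : ε ^ 2 ≤ (kn : ℝ) / 10000000 * u ^ 4) :
    w ^ 2 / 2000 ≤ PhiN u w a0 a1 a2 := by
  have hu : 0 < u := by linarith
  have hu2 : 0 < u ^ 2 := by positivity
  have hnv := nV_of_check hR hN hB.d2 hB.d1 hB.d3 hR0 hR1 hR2 hRu hu1 hu hw0 hw1 h01 h12 h0 hs (hβ2.trans hβ4)
    (by linarith) (by linarith)
  unfold nV at hnv
  have eβ : 1 + u - u * a2 = -u * a2 + (1 - -u) := by ring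
  rw [eβ] at hnv hε hβ1 hβ2
  have k1 : -u * a2 + (1 - -u) ≤ -u * a1 + (1 - -u) := by
    have := mul_le_mul_of_nonneg_left h12 hu.le
    linarith
  have k2 : -u * a1 + (1 - -u) ≤ -u * a0 + (1 - -u) := by
    have := mul_le_mul_of_nonneg_left h01 hu.le
    linarith
  have k3 : (-u * a2 + (1 - -u)) + (-u * a1 + (1 - -u)) + (-u * a0 + (1 - -u)) = 3 := by
    linear_combination (-u) * hs
  have k6 : 0 ≤ -u * a2 + (1 - -u) := by
    have := mul_le_mul_of_nonneg_left (by linarith : a2 ≤ 3) hu.le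
    linarith
  have k7 : -u * a0 + (1 - -u) ≤ 597 / 400 := by
    have := mul_nonneg hu.le h0
    linarith
  have f2 := block_ee2 hB k6 k1 k2 k3 hβ1 hβ2 k7
  have f1 := block_ee1 hB k6 k1 k2 k3 hβ1 hβ2 k7
  have f3 := block_ph3 hB k6 k1 k2 k3 hβ1 hβ2 k7
  have fa := block_abs hB k6 k1 k2 k3 hβ1 hβ2 k7
  rw [rev3 ee2 ee2_swap12 ee2_swap23] at f2
  rw [rev3 ee1 ee1_swap12 ee1_swap23] at f1 fa
  rw [rev3 ph3 ph3_swap12 ph3_swap23] at f3
  have hD : (0 : ℝ) < Dq := by norm_num [Dq]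
  have hE : |ee1 (-u * a0 + (1 - -u)) (-u * a1 + (1 - -u)) (-u * a2 + (1 - -u))| ≤ ε :=
    le_of_mul_le_mul_left (fa.trans hε) hD
  have hQ : (ee1 (-u * a0 + (1 - -u)) (-u * a1 + (1 - -u)) (-u * a2 + (1 - -u)) / u ^ 2) ^ 2 ≤ (kn : ℝ) / 10000000 := by
    rw [div_pow, div_le_iff₀ (by positivity), ← sq_abs]
    have e2 : (kn : ℝ) / 10000000 * (u ^ 2) ^ 2 = (kn : ℝ) / 10000000 * u ^ 4 := by ring
    rw [e2]
    exact (pow_le_pow_left₀ (abs_nonneg _) hE 2).trans hκ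
  have g2 : ee2 (-u * a0 + (1 - -u)) (-u * a1 + (1 - -u)) (-u * a2 + (1 - -u)) ≤ ev2 Q2 (-u * a2 + (1 - -u)) 1 / Dq := by
    rw [le_div_iff₀ hD]
    linarith
  have g1 : -ee1 (-u * a0 + (1 - -u)) (-u * a1 + (1 - -u)) (-u * a2 + (1 - -u)) ≤ ev2 Q1 (-u * a2 + (1 - -u)) 1 / Dq := by
    rw [le_div_iff₀ hD]
    linarith
  have g3 : ph3 (-u * a0 + (1 - -u)) (-u * a1 + (1 - -u)) (-u * a2 + (1 - -u)) ≤ ev2 Q3 (-u * a2 + (1 - -u)) 1 / Dq := by
    rw [le_div_iff₀ hD]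
    linarith
  exact PhiN_alg hu2 (mul_nonneg (piT_nonneg hw0 hw1) (qT_nonneg hw0 hw1))
    (mul_nonneg (piF_nonneg hw0 hw1) (qF_nonneg hw0 hw1)) (lamN_nonneg hw0) (piF_nonneg hw0 hw1) hnv g2 g1 g3 hQ

theorem ok_rootN0 : Ok4 rootN0 := ⟨⟨by simp [rootN0], by simp [rootN0], by simp [rootN0], by simp [rootN0]⟩,
  by simp [rootN0], by simp [rootN0], by simp [rootN0], by simp [rootN0]⟩
theorem ok_rootN1 : Ok4 rootN1 := ⟨⟨by simp [rootN1], by simp [rootN1], by simp [rootN1], by simp [rootN1]⟩,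
  by simp [rootN1], by simp [rootN1], by simp [rootN1], by simp [rootN1]⟩
theorem ok_rootN2 : Ok4 rootN2 := ⟨⟨by simp [rootN2], by simp [rootN2], by simp [rootN2], by simp [rootN2]⟩,
  by simp [rootN2], by simp [rootN2], by simp [rootN2], by simp [rootN2]⟩
theorem ok_rootN3 : Ok4 rootN3 := ⟨⟨by simp [rootN3], by simp [rootN3], by simp [rootN3], by simp [rootN3]⟩,
  by simp [rootN3], by simp [rootN3], by simp [rootN3], by simp [rootN3]⟩

theorem pow4_le {x y : ℝ} (h0 : 0 ≤ x) (h : x ≤ y) : x ^ 4 ≤ y ^ 4 := pow_le_pow_left₀ h0 h 4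

/-- The region near the vertices. -/
theorem point_nv (hu0 : 4 / 9 ≤ u) (hu1 : u ≤ 197 / 400) (hw0 : 0 ≤ w) (hw1 : w ≤ 14 / 5)
    (h01 : a0 ≤ a1) (h12 : a1 ≤ a2) (h0 : 0 ≤ a0) (hs : a0 + a1 + a2 = 3) (hβ : 1 + u - u * a2 ≤ 4 / 25) :
    w ^ 2 / 2000 ≤ PhiN u w a0 a1 a2 := by
  have hu : 0 < u := by linarith
  have ha2 : a2 ≤ 3 := by linarith
  have hlow : 1 - 2 * u ≤ 1 + u - u * a2 := by nlinarith
  rcases le_total (1 + u - u * a2) (3 / 100) with h1 | h1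
  · have hu' : 97 / 200 ≤ u := by linarith
    refine PhiN_of_nV block0 (kn := 7429) (n1 := 149) (n2 := 301) (ε := 6411 / 1000000) ok_rootN0 hN0 rfl rfl rfl ?_ hu0 hu1 hw0
      hw1 h01 h12 h0 hs (by norm_num) (by linarith) h1 (by norm_num) (by norm_num) ?_ ?_
    · exact cmem_of (a := 97 / 200) (b := 197 / 400) (by norm_num [rootN0]) (by norm_num [rootN0]) hu' hu1
    · simp [ev2, Ep0, Dq]
      norm_num
    · have := pow4_le (by norm_num) hu'
      norm_num at this ⊢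
      linarith
  · rcases le_total (1 + u - u * a2) (6 / 100) with h2 | h2
    · have hu' : 47 / 100 ≤ u := by linarith
      refine PhiN_of_nV block1 (kn := 2794) (n1 := 299) (n2 := 601) (ε := 3692 / 1000000) ok_rootN1 hN1 rfl rfl rfl ?_ hu0 hu1
        hw0 hw1 h01 h12 h0 hs (by norm_num) h1 h2 (by norm_num) (by norm_num) ?_ ?_
      · exact cmem_of (a := 47 / 100) (b := 197 / 400) (by norm_num [rootN1]) (by norm_num [rootN1]) hu' hu1
      · simp [ev2, Ep1, Dq]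
        norm_num
      · have := pow4_le (by norm_num) hu'
        norm_num at this ⊢
        linarith
    · rcases le_total (1 + u - u * a2) (1 / 10) with h3 | h3
      · have hu' : 9 / 20 ≤ u := by linarith
        refine PhiN_of_nV block2 (kn := 4854) (n1 := 599) (n2 := 1001) (ε := 4461 / 1000000) ok_rootN2 hN2 rfl rfl rfl ?_ hu0
          hu1 hw0 hw1 h01 h12 h0 hs (by norm_num) h2 h3 (by norm_num) (by norm_num) ?_ ?_
        · exact cmem_of (a := 9 / 20) (b := 197 / 400) (by norm_num [rootN2]) (by norm_num [rootN2]) hu' hu1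
        · simp [ev2, Ep2, Dq]
          norm_num
        · have := pow4_le (by norm_num) hu'
          norm_num at this ⊢
          linarith
      · refine PhiN_of_nV block3 (kn := 5101) (n1 := 999) (n2 := 1601) (ε := 4461 / 1000000) ok_rootN3 hN3 rfl rfl rfl ?_ hu0
          hu1 hw0 hw1 h01 h12 h0 hs (by norm_num) h3 hβ (by norm_num) (by norm_num) ?_ ?_
        · exact cmem_of (a := 4 / 9) (b := 197 / 400) (by norm_num [rootN3]) (by norm_num [rootN3]) hu0 hu1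
        · simp [ev2, Ep3, Dq]
          norm_num
        · have := pow4_le (by norm_num) hu0
          norm_num at this ⊢
          linarith

end nv

/-! ### The whole simplex -/

section final
variable {u w : ℝ}

/-- Sorted triples. -/
theorem point_sorted {a0 a1 a2 : ℝ} (hu0 : 4 / 9 ≤ u) (hu1 : u ≤ 197 / 400) (hw0 : 0 ≤ w) (hw1 : w ≤ 14 / 5)
    (h01 : a0 ≤ a1) (h12 : a1 ≤ a2) (h0 : 0 ≤ a0) (hs : a0 + a1 + a2 = 3) :
    w ^ 2 / 2000 ≤ PhiN u w a0 a1 a2 := by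
  have hu : 0 < u := by linarith
  by_cases hβ : 4 / 25 < 1 + u - u * a2
  · obtain ⟨r, t, hr0, hr1, ht0, ht1, er, ert, es, ey⟩ := rt_sorted h01 h12 h0 hs
    have hreg : u * (r * t) < 21 / 25 := by
      rw [ert]
      nlinarith
    rcases le_total r (19 / 20) with h1 | h1
    · refine PhiN_of_mB (La := Lk1v0) (Lb := Lk1v1) (Lc := Lk1v2) hu hu1 hw0 hw1 h01 h12 h0 hs hβ
        (piece1 hw0 hw1 h0 h01 h12 hs (by linarith)) ?_
      rw [es, ey]
      exact mB_piece1 hr0 hr1 ht0 ht1 hw0 hw1 hu0 hu1 hreg h1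
    · rcases le_total r (49 / 50) with h2 | h2
      · refine PhiN_of_mB (La := Lk2v0) (Lb := Lk2v1) (Lc := Lk2v2) hu hu1 hw0 hw1 h01 h12 h0 hs hβ
          (piece2 hw0 hw1 h0 h01 h12 hs (by linarith) (by linarith)) ?_
        rw [es, ey]
        exact mB_piece2 hr0 hr1 ht0 ht1 hw0 hw1 hu0 hu1 hreg h1 h2
      · rcases le_total r (199 / 200) with h3 | h3
        · refine PhiN_of_mB (La := Lk3v0) (Lb := Lk3v1) (Lc := Lk3v2) hu hu1 hw0 hw1 h01 h12 h0 hs hβ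
            (piece3 hw0 hw1 h0 h01 h12 hs (by linarith) (by linarith)) ?_
          rw [es, ey]
          exact mB_piece3 hr0 hr1 ht0 ht1 hw0 hw1 hu0 hu1 hreg h2 h3
        · refine PhiN_of_mB (La := Lk4v0) (Lb := Lk4v1) (Lc := Lk4v2) hu hu1 hw0 hw1 h01 h12 h0 hs hβ
            (piece4 hw0 hw1 h0 h01 h12 hs (by linarith)) ?_
          rw [es, ey]
          exact mB_piece4 hr0 hr1 ht0 ht1 hw0 hw1 hu0 hu1 hreg h3
  · exact point_nv hu0 hu1 hw0 hw1 h01 h12 h0 hs (not_lt.1 hβ)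

/-- All triples on the simplex. -/
theorem point_all (hu0 : 4 / 9 ≤ u) (hu1 : u ≤ 197 / 400) (hw0 : 0 ≤ w) (hw1 : w ≤ 14 / 5) (a0 a1 a2 : ℝ) (h0 : 0 ≤ a0)
    (h1 : 0 ≤ a1) (h2 : 0 ≤ a2) (hs : a0 + a1 + a2 = 3) : w ^ 2 / 2000 ≤ PhiN u w a0 a1 a2 := by
  refine sym3 (fun a b c => 0 ≤ a → 0 ≤ b → 0 ≤ c → a + b + c = 3 → w ^ 2 / 2000 ≤ PhiN u w a b c) ?_ ?_ ?_ a0 a1 a2
    h0 h1 h2 hs
  · intro a b c h k1 k2 k3 k4
    rw [PhiN_swap12]
    exact h k2 k1 k3 (by linarith)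
  · intro a b c h k1 k2 k3 k4
    rw [PhiN_swap23]
    exact h k1 k3 k2 (by linarith)
  · intro a b c h1 h2 k1 _ _ k4
    exact point_sorted hu0 hu1 hw0 hw1 h1 h2 k1 k4

end final

end Vale.Agent.Lib.P154N
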